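import Vale.Agent.P180.R2.H589.Oe.Aut3

/-!
P180: automorphisms of the groups `Ω(Q)` in characteristic two, dimension at least seven
and not eight.
-/

set_option linter.all false

namespace Vale.Agent.P180.R2.H589.Oe

open Subgroup Module
open LinearMap (BilinForm)
open Vale.Agent.P180.R2.H589.Sch
open Vale.Agent.P180.R2.H589.Sp (SpG mem_SpG finite_gl)
open Vale.Agent.P180.R2.H589.Oa (det_sq IndY)

section Main

variable {K : Type} [Field K] [Finite K] {E : Type} [AddCommGroup E] [Module K E]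
  [Module.Finite K E] {T : Type} [Group T]

/-- the polar form -/
def mkP {B : E → E → K} {Q : E → K} (hadd : ∀ x y z, B (x + y) z = B x z + B y z)
    (hsm : ∀ (a : K) x y, B (a • x) y = a * B x y)
    (hQa : ∀ x y, Q (x + y) = Q x + Q y + B x y) : BilinForm K E :=
  LinearMap.mk₂ K B hadd hsm
    (fun x y z => by
      have h1 : ∀ x y, B x y = B y x := by
        intro x y
        have h2 := hQa x y
        rw [add_comm x y, hQa y x] at h2
        linear_combination -h2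
      rw [h1, hadd, h1 y, h1 z])
    (fun a x y => by
      have h1 : ∀ x y, B x y = B y x := by
        intro x y
        have h2 := hQa x y
        rw [add_comm x y, hQa y x] at h2
        linear_combination -h2
      rw [h1, hsm, h1 y]
      rfl)

/-- the model -/
theorem exists_model (heven : Even (Nat.card K)) (hK : 3 < Nat.card K) (hd : 7 ≤ finrank K E)
    (hd8 : finrank K E ≠ 8) {B : E → E → K} {Q : E → K}
    (hadd : ∀ x y z, B (x + y) z = B x z + B y z)
    (hsm : ∀ (a : K) x y, B (a • x) y = a * B x y)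
    (hnd : ∀ x, (∀ y, B x y = 0) → x = 0)
    (hQa : ∀ x y, Q (x + y) = Q x + Q y + B x y)
    (hQs : ∀ (a : K) x, Q (a • x) = a ^ 2 * Q x) {X : Subgroup (SpecialLinearGroup K E)}
    (hX : ∀ g : SpecialLinearGroup K E, g ∈ X ↔ (∀ x, Q (g x) = Q x) ∧
      Even (finrank K (LinearMap.range (((g.1 : E ≃ₗ[K] E) : E →ₗ[K] E) - 1))))
    {π : X →* T} (hπ : Function.Surjective π)
    (hker : ∀ x : X, π x = 1 → x.1 ∈ center (SpecialLinearGroup K E)) :
    ∃ (_ : CharP K 2) (X' : Subgroup (E ≃ₗ[K] E)) (e : X ≃* X')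
      (c : Ctx Q (mkP hadd hsm hQa) X'),
      Function.Injective (π.comp e.symm.toMonoidHom) ∧
      (∀ (x : X) v, (e x : E ≃ₗ[K] E) v = x.1 v) ∧
      (∀ z : E ≃ₗ[K] E, z ∈ OG Q → ∃ z' : SpecialLinearGroup K E, (∀ v, z' v = z v) ∧
        (z ∈ X' ↔ z' ∈ X)) ∧
      ∀ α : MulAut T, ∃ (g : E ≃+ E) (σ : K ≃+* K) (κ : K), QSim Q g σ κ ∧
        IndY (π.comp e.symm.toMonoidHom) α g := by
  haveI : Finite E := Module.finite_of_finite K
  obtain ⟨p, hpc⟩ := CharP.exists K
  haveI := hpc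
  have hp : p.Prime := (CharP.char_is_prime_or_zero K p).resolve_right (by
    rintro rfl
    exact (CharP.charP_zero_iff_charZero K).mp hpc |>.cast_injective |> fun hi =>
      (Infinite.of_injective _ hi).not_finite inferInstance)
  haveI hpf : Fact p.Prime := ⟨hp⟩
  have hp2 : p = 2 := by
    obtain ⟨n, hn⟩ : ∃ n : ℕ, Nat.card K = p ^ n := by
      letI := Fintype.ofFinite K
      obtain ⟨n, -, hn⟩ := FiniteField.card K p
      exact ⟨n, by rw [Nat.card_eq_fintype_card, hn]⟩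
    rcases hp.eq_two_or_odd' with h | h
    · exact h
    · have h3 : Odd (Nat.card K) := by rw [hn]; exact h.pow
      exact absurd heven (Nat.not_even_iff_odd.mpr h3)
  subst hp2
  have h2 : (2 : K) = 0 := by
    have := CharP.cast_eq_zero K 2
    exact_mod_cast this
  obtain ⟨B', hB'e⟩ : ∃ B' : BilinForm K E, B' = mkP hadd hsm hQa := ⟨_, rfl⟩
  have hB' : ∀ x y, B' x y = B x y := fun x y => by rw [hB'e]; rfl
  have hqd : Qd Q B' := ⟨fun x y => by rw [hQa, hB'], fun a x => by rw [hQs]; ring,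
    fun x hx => hnd x fun y => by rw [← hB', hx], h2⟩
  obtain ⟨ι, hι⟩ : ∃ ι : SpecialLinearGroup K E →* (E ≃ₗ[K] E),
      ∀ g, ι g = SpecialLinearGroup.toLinearEquiv g := ⟨_, fun g => rfl⟩
  have hιg : ∀ g : SpecialLinearGroup K E, ∀ x : E, ι g x = g x := by
    intro g x
    rw [hι]
    rfl
  have hinj : Function.Injective ι := by
    intro g g' h
    apply Subtype.ext
    apply LinearEquiv.ext
    intro x
    have h3 := congrArg (fun e : E ≃ₗ[K] E => e x) h
    simp only [hιg] at h3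
    exact h3
  have hsurj : ∀ z : E ≃ₗ[K] E, z ∈ OG Q → ∃ z', ι z' = z := by
    intro z hz
    have h3 : LinearEquiv.det z = 1 := by
      have h4 := det_sq hqd.Sm (g := z) (OG_iso hqd hz)
      have h5 := congrArg Units.val h4
      rw [Units.val_pow_eq_pow_val, Units.val_one] at h5
      apply Units.ext
      rw [Units.val_one]
      have h6 : (((LinearEquiv.det z : Kˣ) : K) - 1) * (((LinearEquiv.det z : Kˣ) : K) - 1) = 0 := by
        linear_combination h5 + (1 - ((LinearEquiv.det z : Kˣ) : K)) * h2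
      exact sub_eq_zero.mp (mul_self_eq_zero.mp h6)
    exact ⟨⟨z, h3⟩, LinearEquiv.ext fun x => hιg _ x⟩
  have hER : ∀ g : SpecialLinearGroup K E, ER (ι g) ↔
      Even (finrank K (LinearMap.range (((g.1 : E ≃ₗ[K] E) : E →ₗ[K] E) - 1))) := by
    intro g
    rw [hι, ER]
    exact Iff.rfl
  have c : Ctx Q B' (X.map ι) := by
    refine ⟨hqd, fun g => ?_⟩
    constructor
    · rintro ⟨g, hg, rfl⟩
      obtain ⟨h3, h4⟩ := (hX g).mp hg
      exact ⟨fun x => by rw [hιg, h3], (hER g).mpr h4⟩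
    · rintro ⟨h3, h4⟩
      obtain ⟨g, rfl⟩ := hsurj g h3
      exact ⟨g, (hX g).mpr ⟨fun x => by rw [← hιg]; exact h3 x, (hER g).mp h4⟩, rfl⟩
  obtain ⟨e, he⟩ : ∃ e : X ≃* X.map ι, ∀ x, ((e x : X.map ι) : E ≃ₗ[K] E) = ι x :=
    ⟨X.equivMapOfInjective ι hinj, fun x => rfl⟩
  have hev : ∀ (x : X) v, (e x : E ≃ₗ[K] E) v = x.1 v := fun x v => by rw [he, hιg]
  obtain ⟨v₀, hv₀, hv₀s⟩ := exists_sing hqd (by omega : 3 ≤ finrank K E)
  obtain ⟨y₀, -, hy₀⟩ := exists_nonsing hqd (by omega) hv₀ hv₀s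
  have hπi : Function.Injective π := by
    rw [← MonoidHom.ker_eq_bot_iff, eq_bot_iff]
    intro x hx
    obtain ⟨a, ha⟩ : ∃ a : K, ∀ v : E, x.1 v = a • v :=
      ⟨_, fun v => SpecialLinearGroup.mem_center_iff_spec (hker x hx) v⟩
    have h3 := ((hX x.1).mp x.2).1 y₀
    rw [ha, hQs] at h3
    have h4 : (a - 1) * (a - 1) = 0 := by
      have h5 : ((a - 1) * (a - 1)) * Q y₀ = 0 := by
        linear_combination h3 + (1 - a) * Q y₀ * h2
      exact (mul_eq_zero.mp h5).resolve_right hy₀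
    have h5 : a = 1 := sub_eq_zero.mp (mul_self_eq_zero.mp h4)
    rw [mem_bot]
    apply Subtype.ext
    apply hinj
    apply LinearEquiv.ext
    intro v
    have h6 : ι ((1 : X) : SpecialLinearGroup K E) = 1 := by rw [Subgroup.coe_one, map_one]
    rw [hιg, ha, h5, one_smul, h6]
    rfl
  have hi' : Function.Injective (π.comp e.symm.toMonoidHom) := hπi.comp e.symm.injective
  subst hB'e
  refine ⟨hpc, X.map ι, e, c, hi', hev, ?_, ?_⟩
  · intro z hz
    obtain ⟨z', rfl⟩ := hsurj z hz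
    refine ⟨z', fun v => (hιg _ _).symm, ?_⟩
    constructor
    · rintro ⟨y, hy, hyz⟩
      rw [← hinj hyz]
      exact hy
    · exact fun h => ⟨z', h, rfl⟩
  · intro α
    let E' : X.map ι ≃* T := MulEquiv.ofBijective (π.comp e.symm.toMonoidHom)
      ⟨hi', hπ.comp e.symm.surjective⟩
    let α' : MulAut (X.map ι) := (E'.trans α).trans E'.symm
    obtain ⟨g, σ, κ, hg, hi⟩ := exists_qsim c hK hd hd8 α'
    refine ⟨g, σ, κ, hg, fun x => ⟨α' x, hi x, ?_⟩⟩
    have h3 : E' (α' x) = α (E' x) := E'.apply_symm_apply _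
    exact h3.symm

/-- **Semilinear similitudes.** -/
theorem sim_of_aut (heven : Even (Nat.card K)) (hK : 3 < Nat.card K) (hd : 7 ≤ finrank K E)
    (hd8 : finrank K E ≠ 8) {B : E → E → K} {Q : E → K}
    (hadd : ∀ x y z, B (x + y) z = B x z + B y z)
    (hsm : ∀ (a : K) x y, B (a • x) y = a * B x y)
    (hnd : ∀ x, (∀ y, B x y = 0) → x = 0)
    (hQa : ∀ x y, Q (x + y) = Q x + Q y + B x y)
    (hQs : ∀ (a : K) x, Q (a • x) = a ^ 2 * Q x) {X : Subgroup (SpecialLinearGroup K E)}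
    (hX : ∀ g : SpecialLinearGroup K E, g ∈ X ↔ (∀ x, Q (g x) = Q x) ∧
      Even (finrank K (LinearMap.range (((g.1 : E ≃ₗ[K] E) : E →ₗ[K] E) - 1))))
    {π : X →* T} (hπ : Function.Surjective π)
    (hker : ∀ x : X, π x = 1 → x.1 ∈ center (SpecialLinearGroup K E)) (α : MulAut T) :
    ∃ (σ : K ≃+* K) (c : K) (g : E → E), c ≠ 0 ∧ Function.Bijective g ∧
      (∀ v w, g (v + w) = g v + g w) ∧ (∀ (a : K) v, g (a • v) = σ a • g v) ∧
      (∀ v, Q (g v) = c * σ (Q v)) ∧ (∀ v w, B (g v) (g w) = c * σ (B v w)) ∧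
      ∀ x : X, ∃ y : X, (∀ v, g (x.1 v) = y.1 (g v)) ∧ α (π x) = π y := by
  obtain ⟨_, X', e, c, hi', hev, -, H⟩ := exists_model heven hK hd hd8 hadd hsm hnd hQa hQs hX
    hπ hker
  obtain ⟨g, σ, κ, hg, hi⟩ := H α
  refine ⟨σ, κ, g, hg.ne, g.bijective, map_add g, hg.sl, hg.form, hg.polar c.qd, fun x => ?_⟩
  obtain ⟨y, hy, hy'⟩ := hi (e x)
  refine ⟨e.symm y, fun v => ?_, ?_⟩
  · have h3 := hy v
    rw [hev] at h3
    rw [h3, ← hev, e.apply_symm_apply]
  · have h3 : (π.comp e.symm.toMonoidHom) (e x) = π x := congrArg π (e.symm_apply_apply x)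
    rw [← h3]
    exact hy'

/-- **Automorphisms of odd order prime to `|Aut K|` are inner.** -/
theorem inner_of_coprime_T (heven : Even (Nat.card K)) (hK : 3 < Nat.card K)
    (hd : 7 ≤ finrank K E)
    (hd8 : finrank K E ≠ 8) {B : E → E → K} {Q : E → K}
    (hadd : ∀ x y z, B (x + y) z = B x z + B y z)
    (hsm : ∀ (a : K) x y, B (a • x) y = a * B x y)
    (hnd : ∀ x, (∀ y, B x y = 0) → x = 0)
    (hQa : ∀ x y, Q (x + y) = Q x + Q y + B x y)
    (hQs : ∀ (a : K) x, Q (a • x) = a ^ 2 * Q x) {X : Subgroup (SpecialLinearGroup K E)}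
    (hX : ∀ g : SpecialLinearGroup K E, g ∈ X ↔ (∀ x, Q (g x) = Q x) ∧
      Even (finrank K (LinearMap.range (((g.1 : E ≃ₗ[K] E) : E →ₗ[K] E) - 1))))
    (h2X : ∀ g h : SpecialLinearGroup K E, g ∉ X → h ∉ X → (∀ x, Q (g x) = Q x) →
      (∀ x, Q (h x) = Q x) → g * h ∈ X)
    {π : X →* T} (hπ : Function.Surjective π)
    (hker : ∀ x : X, π x = 1 → x.1 ∈ center (SpecialLinearGroup K E)) {α : MulAut T} {m : ℕ}
    (hm : Odd m) (hc : m.Coprime (Nat.card (K ≃+* K))) (hα : α ^ m = 1) :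
    α ∈ (MulAut.conj : T →* MulAut T).range := by
  obtain ⟨_, X', e, c, hi', hev, hG, H⟩ := exists_model heven hK hd hd8 hadd hsm hnd hQa hQs hX
    hπ hker
  refine inner_of_coprime c hi' (hπ.comp e.symm.surjective) (by omega) ?_ H hm hc hα
  intro z w hz hw hz1 hw1
  obtain ⟨z', hzv, hzX⟩ := hG z hz1
  obtain ⟨w', hwv, hwX⟩ := hG w hw1
  obtain ⟨u, huv, huX⟩ := hG (z * w) ((OG Q).mul_mem hz1 hw1)
  rw [huX]
  have h3 := h2X z' w' (fun h => hz (hzX.mpr h)) (fun h => hw (hwX.mpr h))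
    (fun x => by rw [hzv, mem_OG.mp hz1]) (fun x => by rw [hwv, mem_OG.mp hw1])
  have h4 : z' * w' = u := by
    apply Subtype.ext
    apply LinearEquiv.ext
    intro v
    have h5 : (z' * w') v = z' (w' v) := rfl
    have h6 : (z * w) v = z (w v) := rfl
    change (z' * w') v = u v
    rw [h5, huv, h6, hwv, hzv]
  rwa [h4] at h3

/-- **The outer automorphism group is metabelian.** -/
theorem derived_le_conj_T (heven : Even (Nat.card K)) (hK : 3 < Nat.card K)
    (hd : 7 ≤ finrank K E)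
    (hd8 : finrank K E ≠ 8) {B : E → E → K} {Q : E → K}
    (hadd : ∀ x y z, B (x + y) z = B x z + B y z)
    (hsm : ∀ (a : K) x y, B (a • x) y = a * B x y)
    (hnd : ∀ x, (∀ y, B x y = 0) → x = 0)
    (hQa : ∀ x y, Q (x + y) = Q x + Q y + B x y)
    (hQs : ∀ (a : K) x, Q (a • x) = a ^ 2 * Q x) {X : Subgroup (SpecialLinearGroup K E)}
    (hX : ∀ g : SpecialLinearGroup K E, g ∈ X ↔ (∀ x, Q (g x) = Q x) ∧
      Even (finrank K (LinearMap.range (((g.1 : E ≃ₗ[K] E) : E →ₗ[K] E) - 1))))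
    (h2X : ∀ g h : SpecialLinearGroup K E, g ∉ X → h ∉ X → (∀ x, Q (g x) = Q x) →
      (∀ x, Q (h x) = Q x) → g * h ∈ X)
    {π : X →* T} (hπ : Function.Surjective π)
    (hker : ∀ x : X, π x = 1 → x.1 ∈ center (SpecialLinearGroup K E)) :
    derivedSeries (MulAut T) 2 ≤ (MulAut.conj : T →* MulAut T).range := by
  haveI : Finite E := Module.finite_of_finite K
  obtain ⟨_, X', e, c, hi', hev, hG, H⟩ := exists_model heven hK hd hd8 hadd hsm hnd hQa hQs hX
    hπ hker
  refine derived_le c.qd (hπ.comp e.symm.surjective) ?_ H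
  intro z w hz hw hz1 hw1
  obtain ⟨z', hzv, hzX⟩ := hG z hz1
  obtain ⟨w', hwv, hwX⟩ := hG w hw1
  obtain ⟨u, huv, huX⟩ := hG (z * w) ((OG Q).mul_mem hz1 hw1)
  rw [huX]
  have h3 := h2X z' w' (fun h => hz (hzX.mpr h)) (fun h => hw (hwX.mpr h))
    (fun x => by rw [hzv, mem_OG.mp hz1]) (fun x => by rw [hwv, mem_OG.mp hw1])
  have h4 : z' * w' = u := by
    apply Subtype.ext
    apply LinearEquiv.ext
    intro v
    have h5 : (z' * w') v = z' (w' v) := rfl
    have h6 : (z * w) v = z (w v) := rfl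
    change (z' * w') v = u v
    rw [h5, huv, h6, hwv, hzv]
  rwa [h4] at h3

end Main

end Vale.Agent.P180.R2.H589.Oe
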