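import Vale.Agent.P180.R2.H589.Oe.Rd2

/-!
P180: automorphisms of `Ω(Q)`, characteristic two: the automorphisms of the first radical.
-/

set_option linter.all false

namespace Vale.Agent.P180.R2.H589.Oe

open Subgroup Module
open LinearMap (BilinForm)
open Vale.Agent.P180.R2.H589.Sch
open Vale.Agent.P180.R2.H589.Or (Sm hypo hypo_apply hypo_sm pr_mem)
open Vale.Agent.P180.R2.H589.Sp (oo oo_ne finite_gl o')
open Vale.Agent.P180.R2.H589.Oa (exists_mu conj_iff_of_mem)

section Form

variable {K W : Type*} [Field K] [AddCommGroup W] [Module K W] {Q : W → K} {B : BilinForm K W}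
  {D : W → K} {D' : BilinForm K W}

theorem form_aux (h : Qd Q B) (hμ : ∃ μ : K, μ ≠ 0 ∧ μ ^ 2 ≠ 1)
    (hD : ∀ x y, D (x + y) = D x + D y + D' x y) (hDs : ∀ (a : K) x, D (a • x) = a * a * D x)
    (h0 : ∀ x, Q x = 0 → D x = 0) {e f : W} (he : Q e = 0)
    (hf : Q f = 0) (hef : B e f = 1) {y : W} (hey : B e y = 0) (hfy : B f y = 0) :
    D' y e = 0 ∧ D y = D' e f * Q y := by
  have key : ∀ t : K, t ≠ 0 → D' y e * t * t + (D y + D' e f * Q y) * t + Q y * D' y f = 0 := by
    intro t ht
    have h1 : Q ((y + t • e) + (Q y * t⁻¹) • f) = 0 := by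
      rw [h.add, h.add, h.sm, h.sm, he, hf, map_smul, map_smul, map_add, LinearMap.add_apply,
        map_smul, LinearMap.smul_apply, hef, h.symm e y, hey, h.symm f y, hfy]
      simp only [smul_eq_mul]
      have h3 := h.addK (Q y)
      field_simp
      linear_combination t ^ 2 * h3
    have h3 := h0 _ h1
    have h4 := h0 e he
    have h5 := h0 f hf
    rw [hD, hD, hDs, hDs, h4, h5, map_smul, map_smul, map_add, LinearMap.add_apply, map_smul,
      LinearMap.smul_apply] at h3
    simp only [smul_eq_mul] at h3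
    field_simp at h3
    have h6 : t * (D' y e * t * t + (D y + D' e f * Q y) * t + Q y * D' y f) = 0 := by
      linear_combination h3
    exact (mul_eq_zero.mp h6).resolve_left ht
  obtain ⟨μ, hμ0, hμ1⟩ := hμ
  have hμ2 : μ + 1 ≠ 0 := by
    intro h6
    apply hμ1
    have h7 := h.two
    have h8 : μ = 1 := by linear_combination h6 - h7
    rw [h8, one_pow]
  have k1 := key 1 one_ne_zero
  have k2 := key (μ + 1) hμ2
  have k3 := key μ hμ0
  have h2 := h.two
  have e1 : Q y * D' y f = 0 := by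
    linear_combination k1 + k2 + k3 - (Q y * D' y f + D' y e * μ * μ + D' y e * μ + D' y e +
      (D y + D' e f * Q y) * (μ + 1)) * h2
  have e2 : (D' y e * μ + (D y + D' e f * Q y)) * μ = 0 := by
    linear_combination k3 - e1
  have e3 := (mul_eq_zero.mp e2).resolve_right hμ0
  have e4 : D' y e * (μ + 1) = 0 := by
    linear_combination e3 - k1 + e1 + D' y e * h2
  have e5 := (mul_eq_zero.mp e4).resolve_right hμ2
  refine ⟨e5, ?_⟩
  rw [e5] at e3
  linear_combination e3 - (D' e f * Q y) * h2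

/-- **Forms with the same singular vectors.** -/
theorem form_prop (h : Qd Q B) (hμ : ∃ μ : K, μ ≠ 0 ∧ μ ^ 2 ≠ 1)
    (hD : ∀ x y, D (x + y) = D x + D y + D' x y) (hDs : ∀ (a : K) x, D (a • x) = a * a * D x)
    (h0 : ∀ x, Q x = 0 → D x = 0) {e f : W} (he : Q e = 0)
    (hf : Q f = 0) (hef : B e f = 1) (v : W) : D v = D' e f * Q v := by
  have hfe : B f e = 1 := by rw [h.symm e f, hef]
  obtain ⟨w, hw⟩ : ∃ w, w = v - B f v • e - B e v • f := ⟨_, rfl⟩
  have h1 := pr_mem h.Sm (h.alt e) (h.alt f) hef v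
  rw [← hw] at h1
  have hw1 : B e w = 0 := h1.1
  have hw2 : B f w = 0 := h1.2
  obtain ⟨e1, e2⟩ := form_aux h hμ hD hDs h0 he hf hef hw1 hw2
  obtain ⟨e3, -⟩ := form_aux h hμ hD hDs h0 hf he hfe hw2 hw1
  have h3 : v = (w + B f v • e) + B e v • f := by
    rw [hw]
    abel
  obtain ⟨a, ha⟩ : ∃ a, a = B f v := ⟨_, rfl⟩
  obtain ⟨b, hb⟩ : ∃ b, b = B e v := ⟨_, rfl⟩
  rw [← ha, ← hb] at h3
  rw [h3, hD, hD, hDs, hDs, h0 e he, h0 f hf, h.add, h.add, h.sm, h.sm, he, hf, map_smul,
    map_smul, map_smul, map_smul, map_add, map_add, LinearMap.add_apply, LinearMap.add_apply,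
    map_smul, map_smul, LinearMap.smul_apply, LinearMap.smul_apply, e1, e3, e2, hef, h.symm e w,
    hw1, h.symm f w, hw2]
  simp only [smul_eq_mul]
  ring

end Form

section Im

variable {K V : Type*} [Field K] [Finite K] [AddCommGroup V] [Module K V] [Module.Finite K V]
  {Q : V → K} {B : BilinForm K V} {X : Subgroup (V ≃ₗ[K] V)} (c : Ctx Q B X)

/-- the image of a radical -/
def Im (Q : V → K) (B : BilinForm K V) {X : Subgroup (V ≃ₗ[K] V)} (β : MulAut X) (v w : V) :
    Prop :=
  ∀ x, β x ∈ RT Q B X w ↔ x ∈ RT Q B X v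

include c

/-- independence -/
theorem ind_img (hd : 3 ≤ finrank K V) {β : MulAut X} {v v' w w' : V} (hv : Im Q B β v v')
    (hw : Im Q B β w w') (hv0 : v ≠ 0) (hw0 : w ≠ 0) (hw0' : w' ≠ 0) (hvs : Q v = 0)
    (hws : Q w = 0) (hvs' : Q v' = 0) (hk : ∀ k : K, w ≠ k • v) : ∀ k : K, w' ≠ k • v' := by
  haveI : Finite V := Module.finite_of_finite K
  rintro k rfl
  have hk0 : k ≠ 0 := by
    rintro rfl
    exact hw0' (zero_smul _ _)
  obtain ⟨j, hj⟩ := RT_eq c hd hv0 hw0 hvs hws (fun t ht => by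
    rw [← hw, RT_smul c hk0 hvs', hv]
    exact ht)
  exact hk j hj

/-- orthogonality -/
theorem orth_img (hd : 3 ≤ finrank K V) {β : MulAut X} {v v' w w' : V} (hv : Im Q B β v v')
    (hw : Im Q B β w w') (hv0 : v ≠ 0) (hw0 : w ≠ 0) (hv0' : v' ≠ 0) (hw0' : w' ≠ 0)
    (hvs : Q v = 0) (hws : Q w = 0) (hvs' : Q v' = 0) (hws' : Q w' = 0)
    (hk : ∀ k : K, w ≠ k • v) : B v' w' = 0 ↔ B v w = 0 := by
  haveI : Finite V := Module.finite_of_finite K
  have hk' := ind_img c hd hv hw hv0 hw0 hw0' hvs hws hvs' hk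
  rw [← RT_inf c hv0 hw0 hvs hws hk, ← RT_inf c hv0' hw0' hvs' hws' hk']
  constructor
  · rintro ⟨t, h1, h3, h4⟩
    refine ⟨β.symm t, ?_, ?_, ?_⟩
    · rw [← hv, MulEquiv.apply_symm_apply]
      exact h1
    · rw [← hw, MulEquiv.apply_symm_apply]
      exact h3
    · intro h5
      apply h4
      rw [← MulEquiv.apply_symm_apply β t, h5, map_one]
  · rintro ⟨t, h1, h3, h4⟩
    refine ⟨β t, (hv t).mpr h1, (hw t).mpr h3, fun h5 => h4 ?_⟩
    apply β.injective
    rw [h5, map_one]

end Im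

section Norm

variable {K W : Type*} [Field K] [Finite K] [AddCommGroup W] [Module K W] [Module.Finite K W]
  [CharP K 2] {Q : W → K} {B : BilinForm K W} (h : Qd Q B)
  {X : Subgroup ((K × W × K) ≃ₗ[K] (K × W × K))} (c : Ctx (hyq Q) (hypo B) X)

include h c

/-- Normalisation. -/
theorem exists_norm (hK : 3 < Nat.card K) (hd : 5 ≤ finrank K W) (hd6 : finrank K W ≠ 6)
    (α : MulAut X) : ∃ t : X,
    Im (hyq Q) (hypo B) (MulAut.conj t * α) (oo K W) (oo K W) ∧
    Im (hyq Q) (hypo B) (MulAut.conj t * α) (o' K W) (o' K W) := by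
  haveI : Finite W := Module.finite_of_finite K
  have hfin : finrank K (K × W × K) = finrank K W + 2 := by
    rw [Module.finrank_prod, Module.finrank_prod, Module.finrank_self]
    omega
  have hμ := exists_mu hK
  obtain ⟨w₁, hw₁0, hw₁s, hw₁⟩ := exists_img h c hμ hd hd6 α oo_ne (oo_sing h)
  obtain ⟨g, k, hk0, hk⟩ := trans c (by omega) oo_ne hw₁0 (oo_sing h) hw₁s
  have h1 : Im (hyq Q) (hypo B) (MulAut.conj g⁻¹ * α) (oo K W) (oo K W) := by
    intro x
    rw [MulAut.mul_apply, MulAut.conj_apply, inv_inv, RT_conj_iff' c g (oo_sing h), hk,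
      RT_smul c hk0 hw₁s, hw₁]
  obtain ⟨β, hβ⟩ : ∃ β, β = MulAut.conj g⁻¹ * α := ⟨_, rfl⟩
  rw [← hβ] at h1
  obtain ⟨w, hw0, hws, hw⟩ := exists_img h c hμ hd hd6 β (o'_ne (K := K) (W := W)) (o'_sing h)
  -- `w` is not orthogonal to the first vector
  have hw2 : w.2.2 ≠ 0 := by
    intro h0
    have h3 := (orth_img c (by omega) h1 hw oo_ne o'_ne oo_ne hw0 (oo_sing h) (o'_sing h)
      (oo_sing h) hws oo_o'_ind).mp (by rw [oo_orth, h0])
    rw [oo_orth] at h3
    exact one_ne_zero h3
  obtain ⟨a, ha⟩ : ∃ a : X, a = qX Q B X (w.2.2⁻¹ • w.2.1) := ⟨_, rfl⟩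
  have ha1 : (a : (K × W × K) ≃ₗ[K] (K × W × K)) (o' K W) = w.2.2⁻¹ • w := by
    rw [ha, qX_o' h c]
    refine Prod.ext ?_ (Prod.ext rfl ?_)
    · change - Q (w.2.2⁻¹ • w.2.1) = w.2.2⁻¹ * w.1
      rw [h.sm]
      rw [hyq_apply] at hws
      field_simp
      linear_combination -hws
    · exact (inv_mul_cancel₀ hw2).symm
  have ha2 : (a : (K × W × K) ≃ₗ[K] (K × W × K)) (oo K W) = oo K W := by rw [ha, qX_oo h c]
  have ha3 : RT (hyq Q) (hypo B) X w =
      RT (hyq Q) (hypo B) X ((a : (K × W × K) ≃ₗ[K] (K × W × K)) (o' K W)) := by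
    rw [ha1, RT_smul c (inv_ne_zero hw2) hws]
  have key : ∀ x, (MulAut.conj (a⁻¹ * g⁻¹) * α) x = a⁻¹ * β x * a := by
    intro x
    rw [map_mul, mul_assoc, ← hβ, MulAut.mul_apply, MulAut.conj_apply, inv_inv]
  refine ⟨a⁻¹ * g⁻¹, fun x => ?_, fun x => ?_⟩
  · rw [key, RT_conj_iff' c a (oo_sing h), ha2, h1]
  · rw [key, RT_conj_iff' c a (o'_sing h), ← ha3, hw]

/-- **Automorphisms which stabilise the first and the last radical** act semilinearly on the
first radical. -/
theorem exists_maps (hK : 3 < Nat.card K) (hd : 5 ≤ finrank K W) (hd6 : finrank K W ≠ 6)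
    {β : MulAut X} (h1 : Im (hyq Q) (hypo B) β (oo K W) (oo K W))
    (h1' : Im (hyq Q) (hypo B) β (o' K W) (o' K W)) :
    ∃ (s : W ≃+ W) (σ : K ≃+* K) (κ : K), κ ≠ 0 ∧
      (∀ (a : K) y, s (a • y) = σ a • s y) ∧
      (∀ y, Q (s y) = κ * σ (Q y)) ∧
      (∀ y, β (qX Q B X y) = qX Q B X (s y)) ∧
      ∀ y, y ≠ 0 → Q y = 0 →
        Im (hyq Q) (hypo B) β ((0 : K), y, (0 : K)) ((0 : K), s y, (0 : K)) := by
  haveI : Finite W := Module.finite_of_finite K
  have hfin : finrank K (K × W × K) = finrank K W + 2 := by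
    rw [Module.finrank_prod, Module.finrank_prod, Module.finrank_self]
    omega
  have hμ := exists_mu hK
  obtain ⟨e, he0, he⟩ := exists_sing h (by omega : 3 ≤ finrank K W)
  obtain ⟨f, hef, hf⟩ := h.exists_pair he0 he
  have hR : ∀ y : W, ∃ z : W, β (qX Q B X y) = qX Q B X z := fun y =>
    (mem_RT_oo h c).mp ((h1 _).mpr ((mem_RT_oo h c).mpr ⟨y, rfl⟩))
  choose s hs using hR
  have hsadd : ∀ y y', s (y + y') = s y + s y' := by
    intro y y'
    apply qX_inj h c
    rw [← hs, ← qX_mul h c, ← qX_mul h c, map_mul, hs, hs]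
  have hs0 : s 0 = 0 := by
    have := hsadd 0 0
    rw [add_zero] at this
    exact add_eq_left.mp this.symm
  have hsker : ∀ y, s y = 0 → y = 0 := by
    intro y hy
    apply qX_inj h c
    apply β.injective
    rw [hs, hs, hy, hs0]
  let s' : W →+ W := { toFun := s, map_zero' := hs0, map_add' := hsadd }
  have hsinj : Function.Injective s' := (injective_iff_map_eq_zero s').mpr hsker
  have hsbij : Function.Bijective s' := Finite.injective_iff_bijective.mp hsinj
  let S : W ≃+ W := AddEquiv.ofBijective s' hsbij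
  have hS : ∀ y, S y = s y := fun y => rfl
  -- the singular vectors
  have mids : ∀ y : W, Q y = 0 → hyq Q ((0 : K), y, (0 : K)) = 0 := fun y hy => mid_sing 0 hy
  have mid0 : ∀ y : W, y ≠ 0 → ((0 : K), y, (0 : K)) ≠ 0 := fun y hy h0 =>
    hy (congrArg (fun u : K × W × K => u.2.1) h0)
  have midi : ∀ y : W, y ≠ 0 → ∀ k : K, ((0 : K), y, (0 : K)) ≠ k • oo K W := by
    intro y hy k h0
    have h3 := congrArg (fun u : K × W × K => u.2.1) h0
    change y = k • (0 : W) at h3
    rw [smul_zero] at h3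
    exact hy h3
  have midi' : ∀ y : W, y ≠ 0 → ∀ k : K, ((0 : K), y, (0 : K)) ≠ k • o' K W := by
    intro y hy k h0
    have h3 := congrArg (fun u : K × W × K => u.2.1) h0
    change y = k • (0 : W) at h3
    rw [smul_zero] at h3
    exact hy h3
  have stepC : ∀ y, y ≠ 0 → Q y = 0 → Q (s y) = 0 ∧ (∀ a : K, ∃ k : K, s (a • y) = k • s y) ∧
      Im (hyq Q) (hypo B) β ((0 : K), y, (0 : K)) ((0 : K), s y, (0 : K)) := by
    intro y hy0 hy
    obtain ⟨w, hw0, hws, hw⟩ := exists_img h c hμ hd hd6 β (mid0 y hy0) (mids y hy)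
    have e1 : w.2.2 = 0 := by
      have h3 := (orth_img c (by omega) h1 hw oo_ne (mid0 y hy0) oo_ne hw0 (oo_sing h)
        (mids y hy) (oo_sing h) hws (midi y hy0)).mpr (oo_orth B _)
      rwa [oo_orth] at h3
    have e2 : w.1 = 0 := by
      have h3 := (orth_img c (by omega) h1' hw o'_ne (mid0 y hy0) o'_ne hw0 (o'_sing h)
        (mids y hy) (o'_sing h) hws (midi' y hy0)).mpr (o'_orth B _)
      rwa [o'_orth] at h3
    have e3 : w = ((0 : K), w.2.1, (0 : K)) := Prod.ext e2 (Prod.ext rfl e1)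
    have e4 : w.2.1 ≠ 0 := by
      intro h0
      apply hw0
      rw [e3, h0]
      rfl
    have e5 : ∀ a : K, ∃ b : K, s (a • y) = b • w.2.1 := by
      intro a
      have f1 : qX Q B X (a • y) ∈ RT (hyq Q) (hypo B) X ((0 : K), y, (0 : K)) := by
        have g1 : hypo B (oo K W) ((0 : K), y, (0 : K)) = 0 := oo_mid B 0 y
        have g2 : hypo B (a • oo K W) ((0 : K), y, (0 : K)) = 0 := by
          rw [map_smul, LinearMap.smul_apply, g1, smul_zero]
        have g4 : hyq Q (a • oo K W) = 0 := by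
          rw [c.qd.sm, oo_sing h, mul_zero]
        have g3 : qX Q B X (a • y) = rX (hyq Q) (hypo B) X ((0 : K), y, (0 : K))
            (a • oo K W) := by
          rw [← rX_swap c g4 (mids y hy) g2,
            rX_smul c (oo_sing h) g1, qX]
          congr 1
          refine Prod.ext (mul_zero a).symm (Prod.ext rfl (mul_zero a).symm)
        rw [g3]
        refine rX_mem_RT ?_
        rw [c.qd.symm (a • oo K W), g2]
      have f2 := (hw _).mpr f1
      rw [hs] at f2
      obtain ⟨z, hz, f3⟩ := (mem_RT c hws).mp f2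
      obtain ⟨i, j, hij, -, -⟩ := rX_eq c oo_ne hw0 (oo_sing h) hws (oo_mid B 0 _) hz (by
        rw [e3]
        exact midi _ e4) f3
      refine ⟨j, ?_⟩
      have f4 := congrArg (fun u : K × W × K => u.2.1) hij
      change s (a • y) = i • (0 : W) + j • w.2.1 at f4
      rwa [smul_zero, zero_add] at f4
    obtain ⟨b, hb⟩ := e5 1
    rw [one_smul] at hb
    have hb0 : b ≠ 0 := by
      rintro rfl
      rw [zero_smul] at hb
      exact hy0 (hsker y hb)
    have e6 : w = b⁻¹ • ((0 : K), s y, (0 : K)) := by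
      rw [hb]
      refine e3.trans (Prod.ext (mul_zero _).symm (Prod.ext ?_ (mul_zero _).symm))
      change w.2.1 = b⁻¹ • b • w.2.1
      rw [smul_smul, inv_mul_cancel₀ hb0, one_smul]
    have e7 : Q w.2.1 = 0 := by
      rw [e3, hyq_apply] at hws
      change (0 : K) * 0 + Q w.2.1 = 0 at hws
      rwa [mul_zero, zero_add] at hws
    have e8 : Q (s y) = 0 := by rw [hb, h.sm, e7, mul_zero]
    refine ⟨e8, fun a => ?_, fun x => ?_⟩
    · obtain ⟨i, hi⟩ := e5 a
      refine ⟨i * b⁻¹, ?_⟩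
      rw [hi, hb, smul_smul, inv_mul_cancel_right₀ hb0]
    · rw [← hw x, e6, RT_smul c (inv_ne_zero hb0) (mids _ e8)]
  -- the field automorphism
  have hτ : ∀ (y : W) (a : K), ∃ k : K, y ≠ 0 → Q y = 0 → s (a • y) = k • s y := by
    intro y a
    by_cases hy : y ≠ 0 ∧ Q y = 0
    · obtain ⟨k, hk⟩ := (stepC y hy.1 hy.2).2.1 a
      exact ⟨k, fun _ _ => hk⟩
    · exact ⟨0, fun h3 h4 => absurd ⟨h3, h4⟩ hy⟩
  choose τ hτ using hτ
  have hconst : ∀ {y z : W}, y ≠ 0 → z ≠ 0 → Q y = 0 → Q z = 0 → τ y = τ z := by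
    intro y z hy0 hz0 hy hz
    refine sing_const h hd τ ?_ hy0 hz0 hy hz
    intro y z hy0 hz0 hy hz hyz hk
    have e0 : y + z ≠ 0 := by
      intro h5
      apply hk (-1)
      rw [neg_one_smul]
      exact eq_neg_of_add_eq_zero_right h5
    have e1 : Q (y + z) = 0 := by
      rw [h.add, hy, hz, hyz]
      ring
    have hkk : ∀ k : K, s z ≠ k • s y := by
      intro k hk'
      obtain ⟨-, -, h3⟩ := stepC y hy0 hy
      obtain ⟨-, -, h4⟩ := stepC z hz0 hz
      refine ind_img c (by omega) h3 h4 (mid0 y hy0) (mid0 z hz0)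
        (mid0 _ fun h0 => hz0 (hsker z h0)) (mids y hy) (mids z hz) (mids _ (stepC y hy0 hy).1)
        (fun k h0 => ?_) k ?_
      · have h5 := congrArg (fun u : K × W × K => u.2.1) h0
        exact hk k h5
      · rw [hk']
        refine Prod.ext (mul_zero _).symm (Prod.ext rfl (mul_zero _).symm)
    funext a
    have e2 := hτ (y + z) a e0 e1
    rw [smul_add, hsadd, hsadd, hτ y a hy0 hy, hτ z a hz0 hz] at e2
    have e3 : (τ y a - τ (y + z) a) • s y = (τ (y + z) a - τ z a) • s z := by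
      have e4 : τ y a • s y + τ z a • s z - τ (y + z) a • (s y + s z) = 0 := by rw [e2, sub_self]
      have e5 : (τ y a - τ (y + z) a) • s y - (τ (y + z) a - τ z a) • s z =
        τ y a • s y + τ z a • s z - τ (y + z) a • (s y + s z) := by module
      rw [e4] at e5
      exact sub_eq_zero.mp e5
    have e6 : τ (y + z) a - τ z a = 0 := by
      by_contra e7
      apply hkk ((τ (y + z) a - τ z a)⁻¹ * (τ y a - τ (y + z) a))
      rw [mul_smul, e3, smul_smul, inv_mul_cancel₀ e7, one_smul]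
    rw [e6, zero_smul] at e3
    have e7 := (smul_eq_zero.mp e3).resolve_right fun h0 => hy0 (hsker y h0)
    rw [sub_eq_zero.mp e7, sub_eq_zero.mp e6]
  have hsemi : ∀ (a : K) (w : W), s (a • w) = τ e a • s w := by
    intro a w
    let H : AddSubgroup W :=
      { carrier := {w | s (a • w) = τ e a • s w}
        zero_mem' := by
          change s (a • (0 : W)) = τ e a • s 0
          rw [smul_zero, hs0, smul_zero]
        add_mem' := by
          intro x y hx hy
          change s (a • (x + y)) = τ e a • s (x + y)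
          rw [smul_add, hsadd, hsadd, hx, hy, smul_add]
        neg_mem' := by
          intro x hx
          change S (a • (-x)) = τ e a • S (-x)
          rw [smul_neg, map_neg, map_neg, smul_neg, hS, hS]
          exact congrArg Neg.neg hx }
    refine sum_sing h he hf hef H (fun v hv => ?_) w
    change s (a • v) = τ e a • s v
    by_cases hv0 : v = 0
    · rw [hv0, smul_zero, hs0, smul_zero]
    · rw [hτ v a hv0 hv, hconst hv0 he0 hv he]
  have hse0 : s e ≠ 0 := fun h0 => he0 (hsker e h0)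
  let σ' : K →+* K :=
    { toFun := fun a => τ e a
      map_one' := by
        have h3 := hsemi 1 e
        rw [one_smul] at h3
        have h4 : (τ e 1 - 1) • s e = 0 := by rw [sub_smul, one_smul, ← h3, sub_self]
        exact sub_eq_zero.mp ((smul_eq_zero.mp h4).resolve_right hse0)
      map_mul' := by
        intro a b
        have h3 := hsemi (a * b) e
        rw [mul_smul, hsemi, hsemi, smul_smul] at h3
        exact (smul_left_injective K hse0 h3).symm
      map_zero' := by
        have h3 := hsemi 0 e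
        rw [zero_smul, hs0] at h3
        exact (smul_eq_zero.mp h3.symm).resolve_right hse0
      map_add' := by
        intro a b
        have h3 := hsemi (a + b) e
        rw [add_smul, hsadd, hsemi, hsemi, ← add_smul] at h3
        exact (smul_left_injective K hse0 h3).symm }
  have hσinj : Function.Injective σ' := σ'.injective
  let σ : K ≃+* K := RingEquiv.ofBijective σ' (Finite.injective_iff_bijective.mp hσinj)
  have hσ : ∀ a, σ a = τ e a := fun a => rfl
  have hsl : ∀ (a : K) (w : W), s (a • w) = σ a • s w := hsemi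
  -- the form
  let D' : BilinForm K W := LinearMap.mk₂ K (fun x y => σ.symm (B (s x) (s y)))
    (fun x x' y => by rw [hsadd, map_add, LinearMap.add_apply, map_add])
    (fun a x y => by
      rw [hsl, map_smul, LinearMap.smul_apply, smul_eq_mul, map_mul, σ.symm_apply_apply,
        smul_eq_mul])
    (fun x y y' => by rw [hsadd, map_add, map_add])
    (fun a x y => by
      rw [hsl, map_smul, smul_eq_mul, map_mul, σ.symm_apply_apply, smul_eq_mul])
  have hD' : ∀ x y, D' x y = σ.symm (B (s x) (s y)) := fun x y => rfl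
  have hform := form_prop (D := fun x => σ.symm (Q (s x))) (D' := D') h hμ
    (fun x y => by
      change σ.symm (Q (s (x + y))) = σ.symm (Q (s x)) + σ.symm (Q (s y)) + D' x y
      rw [hD', hsadd, h.add, map_add, map_add])
    (fun a x => by
      change σ.symm (Q (s (a • x))) = a * a * σ.symm (Q (s x))
      rw [hsl, h.sm, map_mul, map_mul, σ.symm_apply_apply])
    (fun x hx => by
      change σ.symm (Q (s x)) = 0
      by_cases hx0 : x = 0
      · rw [hx0, hs0, h.zero, map_zero]
      · rw [(stepC x hx0 hx).1, map_zero]) he hf hef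
  have hform' : ∀ x, Q (s x) = σ (D' e f) * σ (Q x) := by
    intro x
    rw [← map_mul, ← hform, σ.apply_symm_apply]
  refine ⟨S, σ, σ (D' e f), ?_, hsl, hform', hs, fun y hy0 hy => (stepC y hy0 hy).2.2⟩
  intro h0
  apply hse0
  apply h.nd
  intro y
  obtain ⟨y, rfl⟩ := hsbij.2 y
  change B (s e) (s y) = 0
  have h3 := h.add (s e) (s y)
  rw [← hsadd, hform', hform', hform', h0, zero_mul, zero_mul, zero_mul, zero_add, zero_add] at h3
  exact h3.symm

end Norm

end Vale.Agent.P180.R2.H589.Oe
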