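import Vale.Agent.P180.R2.H589.Oe.Aut1

/-!
P180: **every automorphism of `Ω(Q)`**, `dim V ≥ 7`, `dim V ≠ 8`, characteristic two, is
induced by a semilinear similitude.
-/

set_option linter.all false

namespace Vale.Agent.P180.R2.H589.Oe

open Subgroup Module
open LinearMap (BilinForm)
open Vale.Agent.P180.R2.H589.Sch
open Vale.Agent.P180.R2.H589.Or (Sm hypo hypo_apply hypo_sm pr_mem)
open Vale.Agent.P180.R2.H589.Sp (oo oo_ne finite_gl o')
open Vale.Agent.P180.R2.H589.Oa (exists_mu conj_iff_of_mem)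

section Def

variable {K V : Type*} [Field K] [AddCommGroup V] [Module K V]

/-- semilinear similitudes of a quadratic form -/
structure QSim (Q : V → K) (g : V ≃+ V) (σ : K ≃+* K) (κ : K) : Prop where
  sl : ∀ (a : K) (v : V), g (a • v) = σ a • g v
  ne : κ ≠ 0
  form : ∀ v, Q (g v) = κ * σ (Q v)

/-- `α` is induced by `g` -/
def IndQ {X : Subgroup (V ≃ₗ[K] V)} (α : MulAut X) (g : V ≃+ V) : Prop :=
  ∀ (x : X) (v : V), g ((x : V ≃ₗ[K] V) v) = ((α x : X) : V ≃ₗ[K] V) (g v)

theorem QSim.polar {Q : V → K} {B : BilinForm K V} (h : Qd Q B) {g : V ≃+ V} {σ : K ≃+* K} {κ : K}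
    (hg : QSim Q g σ κ) (u v : V) : B (g u) (g v) = κ * σ (B u v) := by
  have h1 := h.add (g u) (g v)
  rw [← map_add, hg.form, hg.form, hg.form, h.add u v, map_add, map_add] at h1
  linear_combination -h1

end Def

section Main

variable {K W : Type*} [Field K] [Finite K] [AddCommGroup W] [Module K W] [Module.Finite K W]
  [CharP K 2] {Q : W → K} {B : BilinForm K W} (h : Qd Q B)
  {X : Subgroup ((K × W × K) ≃ₗ[K] (K × W × K))} (c : Ctx (hyq Q) (hypo B) X)

include h c

/-- **Every automorphism** is induced by a semilinear similitude. -/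
theorem exists_qsim_hyp (hK : 3 < Nat.card K) (hd : 5 ≤ finrank K W) (hd6 : finrank K W ≠ 6)
    (α : MulAut X) : ∃ (g : (K × W × K) ≃+ (K × W × K)) (σ : K ≃+* K) (κ : K),
    QSim (hyq Q) g σ κ ∧ IndQ α g := by
  haveI : Finite W := Module.finite_of_finite K
  have hfin : finrank K (K × W × K) = finrank K W + 2 := by
    rw [Module.finrank_prod, Module.finrank_prod, Module.finrank_self]
    omega
  obtain ⟨t, ht1, ht2⟩ := exists_norm h c hK hd hd6 α
  obtain ⟨β, hβ⟩ : ∃ β, β = MulAut.conj t * α := ⟨_, rfl⟩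
  rw [← hβ] at ht1 ht2
  obtain ⟨s, σ, κ, hκ, hs, hform, hmap, hmid⟩ := exists_maps h c hK hd hd6 ht1 ht2
  have hpol : ∀ x y, B (s x) (s y) = κ * σ (B x y) := by
    intro x y
    have h1 := h.add (s x) (s y)
    rw [← map_add, hform, hform, hform, h.add x y, map_add, map_add] at h1
    linear_combination -h1
  -- the semilinear map
  let g : (K × W × K) ≃+ (K × W × K) :=
    { toFun := fun u => (κ * σ u.1, s u.2.1, σ u.2.2)
      invFun := fun u => (σ.symm (κ⁻¹ * u.1), s.symm u.2.1, σ.symm u.2.2)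
      left_inv := by
        intro u
        refine Prod.ext ?_ (Prod.ext (s.symm_apply_apply _) (σ.symm_apply_apply _))
        change σ.symm (κ⁻¹ * (κ * σ u.1)) = u.1
        rw [inv_mul_cancel_left₀ hκ, σ.symm_apply_apply]
      right_inv := by
        intro u
        refine Prod.ext ?_ (Prod.ext (s.apply_symm_apply _) (σ.apply_symm_apply _))
        change κ * σ (σ.symm (κ⁻¹ * u.1)) = u.1
        rw [σ.apply_symm_apply, mul_inv_cancel_left₀ hκ]
      map_add' := by
        intro u v
        refine Prod.ext ?_ (Prod.ext (map_add s _ _) (map_add σ _ _))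
        change κ * σ (u.1 + v.1) = κ * σ u.1 + κ * σ v.1
        rw [map_add, mul_add] }
  have hg : ∀ u, g u = (κ * σ u.1, s u.2.1, σ u.2.2) := fun u => rfl
  have hgS : QSim (hyq Q) g σ κ := by
    refine ⟨fun a v => ?_, hκ, fun v => ?_⟩
    · rw [hg, hg]
      refine Prod.ext ?_ (Prod.ext (hs a _) (map_mul σ _ _))
      change κ * σ (a * v.1) = σ a * (κ * σ v.1)
      rw [map_mul]
      ring
    · rw [hg, hyq_apply, hyq_apply, hform, map_add, map_mul]
      ring
  have hgs : ∀ v, hyq Q v = 0 → hyq Q (g v) = 0 := by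
    intro v hv
    rw [hgS.form, hv, map_zero, mul_zero]
  -- the action on the radicals
  have stepq : ∀ (y : W) (v : K × W × K), hyq Q v = 0 → Im (hyq Q) (hypo B) β v (g v) →
      Im (hyq Q) (hypo B) β ((qX Q B X y : (K × W × K) ≃ₗ[K] (K × W × K)) v)
        ((qX Q B X (s y) : (K × W × K) ≃ₗ[K] (K × W × K)) (g v)) := by
    intro y v hv hv1 x
    rw [← RT_conj_iff' c _ (hgs v hv), ← RT_conj_iff' c _ hv, ← hmap, conj_iff_of_mem hv1]
  have stepg : ∀ (y : W) (v : K × W × K),
      g ((qX Q B X y : (K × W × K) ≃ₗ[K] (K × W × K)) v) =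
        (qX Q B X (s y) : (K × W × K) ≃ₗ[K] (K × W × K)) (g v) := by
    intro y v
    rw [qX_apply h c, qX_apply h c, hg, hg]
    refine Prod.ext ?_ (Prod.ext ?_ rfl)
    · change κ * σ (v.1 - B v.2.1 y - Q y * v.2.2) = κ * σ v.1 - B (s v.2.1) (s y) -
        Q (s y) * σ v.2.2
      rw [hform, hpol, map_sub, map_sub, map_mul]
      ring
    · change s (v.2.1 + v.2.2 • y) = s v.2.1 + σ v.2.2 • s y
      rw [map_add, hs]
  have step2 : ∀ v : K × W × K, v ≠ 0 → hyq Q v = 0 → Im (hyq Q) (hypo B) β v (g v) := by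
    intro v hv0 hv
    have hsm : ∀ (k : K) (w : K × W × K), k ≠ 0 → hyq Q w = 0 → v = k • w →
        Im (hyq Q) (hypo B) β w (g w) → Im (hyq Q) (hypo B) β v (g v) := by
      intro k w hk hw hvw hi x
      rw [hvw, hgS.sl, RT_smul c ((map_ne_zero σ).mpr hk) (hgs w hw), RT_smul c hk hw]
      exact hi x
    by_cases hv2 : v.2.2 = 0
    · by_cases hv1 : v.2.1 = 0
      · -- the first point
        refine hsm v.1 (oo K W) ?_ (oo_sing h) ?_ ?_
        · intro h0
          exact hv0 (Prod.ext h0 (Prod.ext hv1 hv2))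
        · refine Prod.ext (mul_one _).symm (Prod.ext ?_ ?_)
          · rw [hv1]; exact (smul_zero _).symm
          · rw [hv2]; exact (mul_zero _).symm
        · have e3 : g (oo K W) = κ • oo K W := by
            rw [hg]
            refine Prod.ext ?_ (Prod.ext ?_ ?_)
            · change κ * σ 1 = κ * 1
              rw [map_one]
            · change s 0 = κ • (0 : W)
              rw [map_zero, smul_zero]
            · change σ 0 = κ * 0
              rw [map_zero, mul_zero]
          intro x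
          rw [e3, RT_smul c hκ (oo_sing h)]
          exact ht1 x
      · -- orthogonal to the first point
        obtain ⟨y, hy⟩ : ∃ y, y = v.2.1 := ⟨_, rfl⟩
        rw [← hy] at hv1
        have hys : Q y = 0 := by
          rw [hyq_apply, hv2, ← hy, mul_zero, zero_add] at hv
          exact hv
        obtain ⟨z₀, hz₀⟩ := h.Sm.exists_one hv1
        obtain ⟨z, hz⟩ : ∃ z, z = (-v.1) • z₀ := ⟨_, rfl⟩
        have hyz : B y z = -v.1 := by rw [hz, map_smul, hz₀, smul_eq_mul, mul_one]
        have e1 : v = (qX Q B X z : (K × W × K) ≃ₗ[K] (K × W × K)) ((0 : K), y, (0 : K)) := by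
          rw [qX_apply h c]
          refine Prod.ext ?_ (Prod.ext ?_ hv2)
          · change v.1 = 0 - B y z - Q z * 0
            rw [hyz]
            ring
          · change v.2.1 = y + (0 : K) • z
            rw [zero_smul, add_zero, hy]
        have e2 : g ((0 : K), y, (0 : K)) = ((0 : K), s y, (0 : K)) := by
          rw [hg]
          refine Prod.ext ?_ (Prod.ext rfl (map_zero σ))
          change κ * σ 0 = 0
          rw [map_zero, mul_zero]
        have e3 : hyq Q ((0 : K), y, (0 : K)) = 0 := mid_sing 0 hys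
        have e4 : Im (hyq Q) (hypo B) β ((0 : K), y, (0 : K)) (g ((0 : K), y, (0 : K))) := by
          rw [e2]
          exact hmid y hv1 hys
        rw [e1, stepg]
        exact stepq z _ e3 e4
    · -- not orthogonal to the first point
      obtain ⟨y, hy⟩ : ∃ y, y = v.2.2⁻¹ • v.2.1 := ⟨_, rfl⟩
      have hgo : g (o' K W) = o' K W := by
        rw [hg]
        refine Prod.ext ?_ (Prod.ext (map_zero s) (map_one σ))
        change κ * σ 0 = 0
        rw [map_zero, mul_zero]
      refine hsm v.2.2 ((qX Q B X y : (K × W × K) ≃ₗ[K] (K × W × K)) (o' K W)) hv2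
        (by rw [qf c, o'_sing h]) ?_ ?_
      · rw [qX_o' h c]
        refine Prod.ext ?_ (Prod.ext ?_ (mul_one _).symm)
        · change v.1 = v.2.2 * -(Q y)
          rw [hy, h.sm]
          rw [hyq_apply] at hv
          field_simp
          linear_combination hv
        · change v.2.1 = v.2.2 • y
          rw [hy, smul_smul, mul_inv_cancel₀ hv2, one_smul]
      · rw [stepg, hgo]
        have h3 := stepq y (o' K W) (o'_sing h) (by rw [hgo]; exact ht2)
        rw [hgo] at h3
        exact h3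
  -- the action on the elements
  have step3 : IndQ β g := by
    intro x
    obtain ⟨z, hz⟩ : ∃ z, z = β x := ⟨_, rfl⟩
    obtain ⟨k, hk⟩ := add_of_points c.qd (by omega) (z := fun w =>
        (z : (K × W × K) ≃ₗ[K] (K × W × K)).symm
          (g ((x : (K × W × K) ≃ₗ[K] (K × W × K)) (g.symm w))))
      (fun a b => by
        change (z : (K × W × K) ≃ₗ[K] (K × W × K)).symm
          (g ((x : (K × W × K) ≃ₗ[K] (K × W × K)) (g.symm (a + b)))) = _
        rw [map_add, map_add, map_add, map_add]) (fun w hw0 hw => by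
      obtain ⟨v, rfl⟩ := g.surjective w
      have hv0 : v ≠ 0 := by
        rintro rfl
        rw [map_zero] at hw0
        exact hw0 rfl
      have hv : hyq Q v = 0 := by
        rw [hgS.form] at hw
        exact (map_eq_zero σ).mp ((mul_eq_zero.mp hw).resolve_left hκ)
      have hxv0 : (x : (K × W × K) ≃ₗ[K] (K × W × K)) v ≠ 0 :=
        fun h0 => hv0 (LinearEquiv.map_eq_zero_iff _ |>.mp h0)
      have hxv : hyq Q ((x : (K × W × K) ≃ₗ[K] (K × W × K)) v) = 0 := by rw [qf c, hv]
      have hzg : hyq Q ((z : (K × W × K) ≃ₗ[K] (K × W × K)) (g v)) = 0 := by rw [qf c, hw]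
      obtain ⟨k, hk⟩ := RT_eq c (by omega)
        (u := (z : (K × W × K) ≃ₗ[K] (K × W × K)) (g v))
        (w := g ((x : (K × W × K) ≃ₗ[K] (K × W × K)) v))
        (fun h0 => hw0 (LinearEquiv.map_eq_zero_iff _ |>.mp h0))
        (fun h0 => hxv0 (g.map_eq_zero_iff.mp h0)) hzg (hgs _ hxv) (fun u hu => by
          rw [← RT_conj_iff' c z hw] at hu
          obtain ⟨u, rfl⟩ := β.surjective u
          rw [step2 _ hxv0 hxv, ← RT_conj_iff' c x hv, ← step2 v hv0 hv, map_mul, map_mul,
            map_inv, ← hz]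
          exact hu)
      refine ⟨k, ?_⟩
      change (z : (K × W × K) ≃ₗ[K] (K × W × K)).symm
        (g ((x : (K × W × K) ≃ₗ[K] (K × W × K)) (g.symm (g v)))) = k • g v
      rw [g.symm_apply_apply, hk, map_smul, LinearEquiv.symm_apply_apply])
    have h3 : ∀ v, g ((x : (K × W × K) ≃ₗ[K] (K × W × K)) v) =
        k • (z : (K × W × K) ≃ₗ[K] (K × W × K)) (g v) := by
      intro v
      have h4 : (z : (K × W × K) ≃ₗ[K] (K × W × K)).symm
        (g ((x : (K × W × K) ≃ₗ[K] (K × W × K)) (g.symm (g v)))) = k • g v := hk (g v)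
      rw [g.symm_apply_apply, LinearEquiv.symm_apply_eq, map_smul] at h4
      exact h4
    -- the scalar is `1`
    obtain ⟨y, -, hyy⟩ := exists_nonsing c.qd (by omega) oo_ne (oo_sing h)
    have h4 := congrArg (hyq Q) (h3 y)
    rw [hgS.form, qf c, c.qd.sm, qf c, hgS.form] at h4
    have h5 : κ * σ (hyq Q y) ≠ 0 := mul_ne_zero hκ ((map_ne_zero σ).mpr hyy)
    have h6 : (k - 1) * (k - 1) = 0 := by
      have h7 : ((k - 1) * (k - 1)) * (κ * σ (hyq Q y)) = 0 := by
        linear_combination -h4 + (1 - k) * (κ * σ (hyq Q y)) * h.two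
      exact (mul_eq_zero.mp h7).resolve_right h5
    have h7 : k = 1 := sub_eq_zero.mp (mul_self_eq_zero.mp h6)
    intro v
    rw [h3, h7, one_smul, hz]
  -- back to `α`
  refine ⟨g.trans (t : (K × W × K) ≃ₗ[K] (K × W × K)).symm.toAddEquiv, σ, κ, ?_, ?_⟩
  · refine ⟨fun a v => ?_, hκ, fun v => ?_⟩
    · change (t : (K × W × K) ≃ₗ[K] (K × W × K)).symm (g (a • v)) =
        σ a • (t : (K × W × K) ≃ₗ[K] (K × W × K)).symm (g v)
      rw [hgS.sl, map_smul]
    · change hyq Q ((t : (K × W × K) ≃ₗ[K] (K × W × K)).symm (g v)) = _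
      rw [← hgS.form, ← qf c t, LinearEquiv.apply_symm_apply]
  · intro x v
    have h3 := step3 x v
    rw [hβ, MulAut.mul_apply, MulAut.conj_apply] at h3
    change (t : (K × W × K) ≃ₗ[K] (K × W × K)).symm
      (g ((x : (K × W × K) ≃ₗ[K] (K × W × K)) v)) =
      ((α x : X) : (K × W × K) ≃ₗ[K] (K × W × K)) ((t : (K × W × K) ≃ₗ[K] (K × W × K)).symm (g v))
    rw [h3]
    change (t : (K × W × K) ≃ₗ[K] (K × W × K)).symm ((t : (K × W × K) ≃ₗ[K] (K × W × K))
      (((α x : X) : (K × W × K) ≃ₗ[K] (K × W × K))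
        ((t : (K × W × K) ≃ₗ[K] (K × W × K)).symm (g v)))) = _
    rw [LinearEquiv.symm_apply_apply]

end Main

end Vale.Agent.P180.R2.H589.Oe
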