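import Vale.Agent.P180.R2.H589.Oe.Aut2
import Vale.Agent.P180.R2.H589.Oa.Fin

/-!
P180: automorphisms of `Ω(Q)`, characteristic two: general quadratic spaces.
-/

set_option linter.all false

namespace Vale.Agent.P180.R2.H589.Oe

open Subgroup Module
open LinearMap (BilinForm)
open Vale.Agent.P180.R2.H589.Sch
open Vale.Agent.P180.R2.H589.Or (Sm hypo hypo_apply hypo_sm splitE splitE_iso splitE_apply BW_sm
  pr_mem)
open Vale.Agent.P180.R2.H589.Sp (SpG mem_SpG WW BW BW_apply oo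
  oo_ne finite_gl o' cj cj_apply cj_mem ringEquiv_comm SSim)
open Vale.Agent.P180.R2.H589.Oa (exists_mu det_sq comm_mem IndY IndL exists_linear indY_one
  exists_dual)

section Conj

variable {K V V' : Type*} [Field K] [AddCommGroup V] [Module K V] [AddCommGroup V'] [Module K V']

/-- the parity of the rank is invariant under conjugation -/
theorem ER_conj (e : V' ≃ₗ[K] V)
    (g : V' ≃ₗ[K] V') (g' : V ≃ₗ[K] V) (hg : ∀ v, g' (e v) = e (g v)) : ER g' ↔ ER g := by
  rw [ER, ER]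
  have h1 : (LinearMap.range ((g : V' →ₗ[K] V') - 1)).map (e : V' →ₗ[K] V) =
      LinearMap.range ((g' : V →ₗ[K] V) - 1) := by
    apply le_antisymm
    · rintro _ ⟨_, ⟨x, rfl⟩, rfl⟩
      refine ⟨e x, ?_⟩
      change g' (e x) - e x = e (g x - x)
      rw [hg, map_sub]
    · rintro _ ⟨x, rfl⟩
      refine ⟨g (e.symm x) - e.symm x, ⟨e.symm x, rfl⟩, ?_⟩
      change e (g (e.symm x) - e.symm x) = g' x - x
      rw [map_sub, ← hg, e.apply_symm_apply]
  rw [← h1, LinearEquiv.finrank_map_eq]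

end Conj

section Transport

variable {K V : Type*} [Field K] [Finite K] [AddCommGroup V] [Module K V] [Module.Finite K V]
  [CharP K 2] {Q : V → K} {B : BilinForm K V} {X : Subgroup (V ≃ₗ[K] V)} (c : Ctx Q B X)

include c

/-- **Every automorphism** is induced by a semilinear similitude. -/
theorem exists_qsim (hK : 3 < Nat.card K) (hd : 7 ≤ finrank K V) (hd8 : finrank K V ≠ 8)
    (α : MulAut X) : ∃ (g : V ≃+ V) (σ : K ≃+* K) (κ : K), QSim Q g σ κ ∧ IndQ α g := by
  haveI : Finite V := Module.finite_of_finite K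
  have h := c.qd
  obtain ⟨o, ho, ho0⟩ := exists_sing h (by omega : 3 ≤ finrank K V)
  obtain ⟨o', h1, ho'⟩ := h.exists_pair ho ho0
  have hBW := BW_qd h ho0 ho' h1
  have hfin := finrank_WW h h1
  obtain ⟨e, hee⟩ : ∃ e, e = splitE h.Sm (h.alt o) (h.alt o') h1 := ⟨_, rfl⟩
  have he : ∀ v, Q (e v) = hyq (fun x : WW B o o' => Q x) v := by
    intro v
    have h3 : e v = (v.1 • o + (v.2.1 : V)) + v.2.2 • o' := by
      rw [hee, splitE_apply]
    have h4 : B o (v.2.1 : V) = 0 := v.2.1.2.1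
    have h5 : B o' (v.2.1 : V) = 0 := v.2.1.2.2
    rw [h3, h.add, h.add, h.sm, h.sm, ho0, ho', map_smul, map_smul, map_add, LinearMap.smul_apply,
      LinearMap.add_apply, map_smul, LinearMap.smul_apply, h4, h1, h.symm o' (v.2.1 : V), h5,
      hyq_apply]
    simp only [smul_eq_mul]
    ring
  let X' := X.comap (cj e).toMonoidHom
  let eX : X' ≃* X :=
    { toFun := fun g => ⟨cj e g, g.2⟩
      invFun := fun g => ⟨(cj e).symm g, by
        change cj e ((cj e).symm (g : V ≃ₗ[K] V)) ∈ X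
        rw [MulEquiv.apply_symm_apply]
        exact g.2⟩
      left_inv := fun g => Subtype.ext ((cj e).symm_apply_apply g)
      right_inv := fun g => Subtype.ext ((cj e).apply_symm_apply g)
      map_mul' := fun g h => Subtype.ext (map_mul (cj e) (g : _ ≃ₗ[K] _) (h : _ ≃ₗ[K] _)) }
  have heX : ∀ (x : X') v, (eX x : V ≃ₗ[K] V) (e v) =
      e ((x : (K × WW B o o' × K) ≃ₗ[K] (K × WW B o o' × K)) v) := by
    intro x v
    change cj e (x : (K × WW B o o' × K) ≃ₗ[K] (K × WW B o o' × K)) (e v) = _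
    rw [cj_apply, e.symm_apply_apply]
  have c' : Ctx (hyq (fun x : WW B o o' => Q x)) (hypo (BW B o o')) X' := by
    refine ⟨hyq_qd hBW, fun g => ?_⟩
    have h3 : g ∈ X' ↔ cj e g ∈ X := Iff.rfl
    have h4 : ∀ v, cj e g (e v) = e (g v) := by
      intro v
      rw [cj_apply, e.symm_apply_apply]
    rw [h3, c.mem, ER_conj e g (cj e g) h4, mem_OG, mem_OG]
    refine and_congr_left fun _ => ?_
    constructor
    · intro h5 x
      rw [← he, ← he, ← h4, h5]
    · intro h5 x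
      obtain ⟨x, rfl⟩ := e.surjective x
      rw [h4, he, he, h5]
  let α' : MulAut X' := (eX.trans α).trans eX.symm
  obtain ⟨g, σ, κ, hg, hind⟩ := exists_qsim_hyp hBW c' hK (by omega) (by omega) α'
  refine ⟨(e.symm.toAddEquiv.trans g).trans e.toAddEquiv, σ, κ, ⟨fun a v => ?_, hg.ne,
    fun v => ?_⟩, fun x v => ?_⟩
  · change e (g (e.symm (a • v))) = σ a • e (g (e.symm v))
    rw [map_smul, hg.sl, map_smul]
  · change Q (e (g (e.symm v))) = _
    rw [he, hg.form, ← he, e.apply_symm_apply]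
  · obtain ⟨x, rfl⟩ := eX.surjective x
    obtain ⟨v, rfl⟩ := e.surjective v
    change e (g (e.symm ((eX x : V ≃ₗ[K] V) (e v)))) =
      ((α (eX x) : X) : V ≃ₗ[K] V) (e (g (e.symm (e v))))
    have h3 : eX (α' x) = α (eX x) := eX.apply_symm_apply _
    rw [heX, e.symm_apply_apply, e.symm_apply_apply, hind, ← h3, heX]

end Transport

section Sim

variable {K V : Type*} [Field K] [AddCommGroup V] [Module K V]
  {Q : V → K} {B : BilinForm K V} {g g' : V ≃+ V} {σ τ : K ≃+* K} {κ μ : K}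

theorem QSim.mul (hg : QSim Q g σ κ) (hh : QSim Q g' τ μ) :
    QSim Q (g'.trans g) (τ.trans σ) (κ * σ μ) := by
  refine ⟨fun c v => ?_, mul_ne_zero hg.ne ((map_ne_zero σ).mpr hh.ne), fun v => ?_⟩
  · change g (g' (c • v)) = σ (τ c) • g (g' v)
    rw [hh.sl, hg.sl]
  · change Q (g (g' v)) = κ * σ μ * σ (τ (Q v))
    rw [hg.form, hh.form, map_mul, mul_assoc]

theorem QSim.inv (hg : QSim Q g σ κ) : QSim Q g.symm σ.symm (σ.symm κ⁻¹) := by
  refine ⟨fun c v => ?_, (map_ne_zero σ.symm).mpr (inv_ne_zero hg.ne), fun v => ?_⟩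
  · apply g.injective
    rw [g.apply_symm_apply, hg.sl, g.apply_symm_apply, σ.apply_symm_apply]
  · have h1 := hg.form (g.symm v)
    rw [g.apply_symm_apply] at h1
    apply σ.injective
    rw [map_mul, σ.apply_symm_apply, σ.apply_symm_apply, h1, inv_mul_cancel_left₀ hg.ne]

theorem QSim.ssim (h : Qd Q B) (hg : QSim Q g σ κ) : SSim B g σ κ :=
  ⟨hg.sl, hg.ne, hg.polar h⟩

variable {X : Subgroup (V ≃ₗ[K] V)} {T : Type*} [Group T] {π : X →* T}

/-- the linear case: an isometry -/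
theorem exists_isom [Finite K] (h : Qd Q B) {α : MulAut T} (hg : QSim Q g (RingEquiv.refl K) κ)
    (hi : IndY π α g) : ∃ z : V ≃ₗ[K] V, z ∈ OG Q ∧ IndL π α z := by
  obtain ⟨z, hz, hzi⟩ := exists_linear (hg.ssim h) hi
  obtain ⟨r, hr⟩ := exists_sqrt h.two κ
  have hr0 : r ≠ 0 := by
    rintro rfl
    exact hg.ne (by rw [← hr, mul_zero])
  obtain ⟨s, hs⟩ : ∃ s : V ≃ₗ[K] V, ∀ v, s v = r⁻¹ • v :=
    ⟨LinearEquiv.smulOfNeZero K V r⁻¹ (inv_ne_zero hr0), fun v => rfl⟩
  refine ⟨s * z, fun v => ?_, fun x => ?_⟩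
  · rw [LinearEquiv.mul_apply, hs, hz, h.sm, hg.form, ← hr]
    change r⁻¹ * r⁻¹ * (r * r * Q v) = Q v
    field_simp
  · obtain ⟨y, hy, hy'⟩ := hzi x
    refine ⟨y, LinearEquiv.ext fun v => ?_, hy'⟩
    have h3 := congrArg (fun e : V ≃ₗ[K] V => e v) hy
    rw [LinearEquiv.mul_apply, LinearEquiv.mul_apply, LinearEquiv.mul_apply, LinearEquiv.mul_apply,
      hs, hs, map_smul]
    congr 1

end Sim

section Der

variable {K V : Type*} [Field K] [Finite K] [AddCommGroup V] [Module K V] [Finite V]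
  {Q : V → K} {B : BilinForm K V} {X : Subgroup (V ≃ₗ[K] V)} {T : Type*} [Group T] {π : X →* T}

/-- the automorphisms induced by isometries -/
def IsoA (Q : V → K) (π : X →* T) : Subgroup (MulAut T) where
  carrier := {α | ∃ z : V ≃ₗ[K] V, z ∈ OG Q ∧ IndL π α z}
  one_mem' := ⟨1, Subgroup.one_mem _, fun x => ⟨x, by rw [one_mul, mul_one], rfl⟩⟩
  mul_mem' := by
    rintro α β ⟨z, h1, h3⟩ ⟨w, h4, h6⟩
    exact ⟨z * w, Subgroup.mul_mem _ h1 h4, h3.mul h6⟩
  inv_mem' := by
    haveI : Finite (V ≃ₗ[K] V) := finite_gl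
    rintro α ⟨z, h1, h3⟩
    exact ⟨z⁻¹, Subgroup.inv_mem _ h1, h3.inv⟩

theorem inner_of_mem (hπ : Function.Surjective π) {α : MulAut T} {z : V ≃ₗ[K] V}
    (h1 : IndL π α z) (hz : z ∈ X) : α ∈ (MulAut.conj : T →* MulAut T).range := by
  refine ⟨π ⟨z, hz⟩, ?_⟩
  ext t
  obtain ⟨x, rfl⟩ := hπ t
  obtain ⟨y, hy, hy'⟩ := h1 x
  rw [hy', MulAut.conj_apply, ← map_inv, ← map_mul, ← map_mul]
  congr 1
  rw [mul_inv_eq_iff_eq_mul]
  exact Subtype.ext hy

open scoped commutatorElement in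
/-- **The outer automorphism group is metabelian.** -/
theorem derived_le (h : Qd Q B) (hπ : Function.Surjective π)
    (h2G : ∀ z w : V ≃ₗ[K] V, z ∉ X → w ∉ X → z ∈ OG Q → w ∈ OG Q → z * w ∈ X)
    (H : ∀ α : MulAut T, ∃ (g : V ≃+ V) (σ : K ≃+* K) (κ : K), QSim Q g σ κ ∧ IndY π α g) :
    derivedSeries (MulAut T) 2 ≤ (MulAut.conj : T →* MulAut T).range := by
  haveI : Finite (V ≃ₗ[K] V) := finite_gl
  have d1 : derivedSeries (MulAut T) 1 ≤ IsoA Q π := by
    rw [derivedSeries_succ, derivedSeries_zero, commutator_le]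
    intro α _ β _
    obtain ⟨g, σ, κ, hg, h1⟩ := H α
    obtain ⟨g', τ, μ, hh, h2⟩ := H β
    have h3 := (hg.mul (hh.mul (hg.inv.mul hh.inv)))
    have h4 := h1.mul (h2.mul (h1.inv.mul h2.inv))
    have h5 : (((τ.symm.trans σ.symm).trans τ).trans σ) = RingEquiv.refl K := by
      ext a
      change σ (τ (σ.symm (τ.symm a))) = a
      rw [ringEquiv_comm τ σ.symm, σ.apply_symm_apply, τ.apply_symm_apply]
    rw [h5] at h3
    have h6 : ⁅α, β⁆ = α * (β * (α⁻¹ * β⁻¹)) := by
      rw [commutatorElement_def]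
      group
    rw [h6]
    exact exists_isom h h3 h4
  rw [derivedSeries_succ, commutator_le]
  intro α hα β hβ
  obtain ⟨z, h1, h3⟩ := d1 hα
  obtain ⟨w, h4, h6⟩ := d1 hβ
  rw [commutatorElement_def]
  exact inner_of_mem hπ (((h3.mul h6).mul h3.inv).mul h6.inv)
    (comm_mem (S := OG Q) h2G h1 h4)

end Der

section Cop

variable {K V : Type*} [Field K] [Finite K] [AddCommGroup V] [Module K V] [Module.Finite K V]
  {Q : V → K} {B : BilinForm K V} {X : Subgroup (V ≃ₗ[K] V)} (c : Ctx Q B X)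
  {T : Type*} [Group T] {π : X →* T} (hinj : Function.Injective π)

include c hinj

/-- A semilinear similitude which induces the identity is a scalar. -/
theorem refl_of_indY (hd : 5 ≤ finrank K V) {g : V ≃+ V} {σ : K ≃+* K} {κ : K}
    (hg : QSim Q g σ κ) (hi : IndY π 1 g) : σ = RingEquiv.refl K := by
  haveI : Finite V := Module.finite_of_finite K
  have h := c.qd
  have h1 : ∀ u : V, u ≠ 0 → Q u = 0 → ∃ k : K, g u = k • u := by
    intro u hu0 hu
    obtain ⟨y, hy, hyy⟩ := exists_nonsing h (by omega) hu0 hu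
    have hyu : ∀ k : K, y ≠ k • u := by
      rintro k rfl
      apply hyy
      rw [h.sm, hu, mul_zero]
    obtain ⟨x, hxu, hxy⟩ := exists_dual h.Sm hu0 hyu
    obtain ⟨x', hx', hx''⟩ := hi (rX Q B X u y)
    have hxx : rX Q B X u y = x' := hinj hx''
    rw [← hxx] at hx'
    have e1 := hx' x
    rw [rX_apply c hu hy, rX_apply c hu hy, rl_apply, rl_apply, hxu, hxy, mul_zero,
      add_zero, zero_smul, add_zero, map_sub, hg.sl, map_one, one_smul] at e1
    obtain ⟨b, hb⟩ : ∃ b, b = B (g x) u := ⟨_, rfl⟩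
    obtain ⟨a, ha⟩ : ∃ a, a = B (g x) y + Q y * B (g x) u := ⟨_, rfl⟩
    rw [← ha, ← hb] at e1
    have e2 : g u = a • u - b • y := by
      have e4 : g x - g u - (g x + b • y - a • u) = 0 := by rw [e1, sub_self]
      have e5 : g u = a • u - b • y - (g x - g u - (g x + b • y - a • u)) := by abel
      rw [e4, sub_zero] at e5
      exact e5
    have e3 : Q (g u) = 0 := by rw [hg.form, hu, map_zero, mul_zero]
    have e4 : b = 0 := by
      rw [e2, h.sub, h.sm, h.sm, hu, map_smul, map_smul, LinearMap.smul_apply, hy, smul_zero,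
        smul_zero, mul_zero, zero_add, sub_zero] at e3
      exact mul_self_eq_zero.mp ((mul_eq_zero.mp e3).resolve_right hyy)
    refine ⟨a, ?_⟩
    rw [e2, e4, zero_smul, sub_zero]
  obtain ⟨k, hk⟩ := add_of_points h hd (z := g) (map_add g) h1
  obtain ⟨v, hv0, -⟩ := exists_sing h (by omega : 3 ≤ finrank K V)
  have hk0 : k ≠ 0 := by
    rintro rfl
    have h3 := hk v
    rw [zero_smul] at h3
    exact hv0 (g.map_eq_zero_iff.mp h3)
  ext a
  have h3 := hg.sl a v
  rw [hk, hk, smul_smul, smul_smul] at h3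
  have h4 := smul_left_injective K hv0 h3
  change k * a = σ a * k at h4
  rw [mul_comm] at h4
  exact (mul_right_cancel₀ hk0 h4).symm

/-- **Automorphisms of odd order prime to `|Aut K|` are inner.** -/
theorem inner_of_coprime (hπ : Function.Surjective π) (hd : 5 ≤ finrank K V)
    (h2G : ∀ z w : V ≃ₗ[K] V, z ∉ X → w ∉ X → z ∈ OG Q → w ∈ OG Q → z * w ∈ X)
    (H : ∀ α : MulAut T, ∃ (g : V ≃+ V) (σ : K ≃+* K) (κ : K), QSim Q g σ κ ∧ IndY π α g)
    {α : MulAut T} {m : ℕ} (hm : Odd m) (hc : m.Coprime (Nat.card (K ≃+* K))) (hα : α ^ m = 1) :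
    α ∈ (MulAut.conj : T →* MulAut T).range := by
  haveI : Finite V := Module.finite_of_finite K
  obtain ⟨g, σ, κ, hg, h1⟩ := H α
  have hpow : ∀ n : ℕ, ∃ (g' : V ≃+ V) (κ' : K), QSim Q g' ((σ : RingAut K) ^ n) κ' ∧
      IndY π (α ^ n) g' := by
    intro n
    induction n with
    | zero =>
      refine ⟨AddEquiv.refl V, 1, ⟨fun c v => rfl, one_ne_zero, fun u => (one_mul _).symm⟩, ?_⟩
      rw [pow_zero]
      exact indY_one
    | succ n ih =>
      obtain ⟨g', κ', h2, h3⟩ := ih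
      refine ⟨g.trans g', κ' * ((σ : RingAut K) ^ n) κ, ?_, ?_⟩
      · have h4 := h2.mul hg
        rw [pow_succ]
        exact h4
      · rw [pow_succ]
        exact h3.mul h1
  obtain ⟨g', κ', h2, h3⟩ := hpow m
  rw [hα] at h3
  have h4 : ((σ : RingAut K) ^ m) = 1 := refl_of_indY c hinj hd h2 h3
  haveI : Finite (RingAut K) := Finite.of_injective (fun e : K ≃+* K => (e : K → K))
    (fun e e' h => RingEquiv.ext (congrFun h))
  have h5 : (σ : RingAut K) = 1 := by
    have h6 := orderOf_dvd_of_pow_eq_one h4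
    have h7 : orderOf (σ : RingAut K) ∣ Nat.card (RingAut K) := orderOf_dvd_natCard _
    have h8 := Nat.eq_one_of_dvd_coprimes hc h6 h7
    exact orderOf_eq_one_iff.mp h8
  have h6 : σ = RingEquiv.refl K := h5
  subst h6
  obtain ⟨z, hz, hzi⟩ := exists_isom c.qd hg h1
  have hz2 : z * z ∈ X := by
    by_cases hzX : z ∈ X
    · exact X.mul_mem hzX hzX
    · exact h2G z z hzX hzX hz hz
  have h7 : α * α ∈ (MulAut.conj : T →* MulAut T).range := inner_of_mem hπ (hzi.mul hzi) hz2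
  obtain ⟨j, hj⟩ := hm
  have h8 : α = (α * α) ^ (j + 1) := by
    rw [← pow_two, ← pow_mul]
    have h10 : 2 * (j + 1) = m + 1 := by rw [hj]; ring
    rw [h10, pow_succ, hα, one_mul]
  rw [h8]
  exact Subgroup.pow_mem _ h7 _

end Cop

end Vale.Agent.P180.R2.H589.Oe
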