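import Vale.Agent.P180.R2.H589.Oa.Cls

/-!
P180: quadratic forms in characteristic two: singular vectors.
-/

set_option linter.all false

namespace Vale.Agent.P180.R2.H589.Oe

open Subgroup Module
open LinearMap (BilinForm)
open Vale.Agent.P180.R2.H589.Sch
open Vale.Agent.P180.R2.H589.Or (Sm hypo hypo_apply hypo_sm splitE splitE_iso splitE_apply BW_sm
  pr_mem)
open Vale.Agent.P180.R2.H589.Sp (SpG mem_SpG WW BW BW_apply)
open Vale.Agent.P180.R2.H589.Oa (exists_smul_of_perp exists_dual exists_one_one exists_perp2)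

section Def

variable {K V : Type*} [Field K] [AddCommGroup V] [Module K V]

/-- nondegenerate quadratic forms in characteristic two -/
structure Qd (Q : V → K) (B : BilinForm K V) : Prop where
  add : ∀ x y, Q (x + y) = Q x + Q y + B x y
  sm : ∀ (a : K) x, Q (a • x) = a * a * Q x
  nd : ∀ x, (∀ y, B x y = 0) → x = 0
  two : (2 : K) = 0

variable {Q : V → K} {B : BilinForm K V} (h : Qd Q B)

include h

theorem Qd.symm (x y : V) : B y x = B x y := by
  have h1 := h.add x y
  rw [add_comm x y, h.add y x] at h1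
  linear_combination h1

theorem Qd.Sm : Sm B := ⟨h.symm, h.nd⟩

theorem Qd.addK (a : K) : a + a = 0 := by
  have := h.two
  linear_combination a * this

theorem Qd.negK (a : K) : -a = a := by
  have := h.addK a
  linear_combination -this

theorem Qd.addV (x : V) : x + x = 0 := by
  have h1 : x + x = (2 : K) • x := (two_smul K x).symm
  rw [h1, h.two, zero_smul]

theorem Qd.zero : Q 0 = 0 := by
  have h1 := h.sm 0 0
  rw [zero_smul] at h1
  rw [h1]
  ring

theorem Qd.alt (x : V) : B x x = 0 := by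
  have h1 := h.add x x
  rw [h.addV, h.zero] at h1
  have h3 := h.addK (Q x)
  linear_combination -h1 - h3

theorem Qd.neg (x : V) : Q (-x) = Q x := by
  have h1 := h.sm (-1) x
  rw [neg_one_smul] at h1
  rw [h1]
  ring

theorem Qd.sub (x y : V) : Q (x - y) = Q x + Q y - B x y := by
  rw [sub_eq_add_neg, h.add, h.neg, map_neg]
  ring

theorem Qd.exists_pair {x : V} (hx : x ≠ 0) (hs : Q x = 0) : ∃ y, B x y = 1 ∧ Q y = 0 := by
  obtain ⟨y, hy⟩ := h.Sm.exists_one hx
  refine ⟨y - Q y • x, ?_, ?_⟩
  · rw [map_sub, map_smul, h.alt, smul_zero, sub_zero, hy]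
  · rw [h.sub, h.sm, hs, map_smul, h.symm x y, hy, smul_eq_mul]
    ring

/-- polarization -/
theorem orth_of_sing {x y : V} (hx : Q x = 0) (hy : Q y = 0) (hxy : Q (x + y) = 0) :
    B x y = 0 := by
  rw [h.add, hx, hy, zero_add, zero_add] at hxy
  exact hxy

/-- nonsingular vectors orthogonal to a singular vector -/
theorem exists_nonsing [Module.Finite K V] (hd : 3 ≤ finrank K V) {u : V} (hu0 : u ≠ 0)
    (hu : Q u = 0) : ∃ y, B u y = 0 ∧ Q y ≠ 0 := by
  by_contra hcon
  push Not at hcon
  obtain ⟨u', h1, h3⟩ := h.exists_pair hu0 hu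
  obtain ⟨y, hy0, hy1, hy2⟩ := exists_perp2 (B := B) hd u u'
  apply hy0
  apply h.nd
  intro x
  have h4 : B u (x - B u x • u') = 0 := by
    rw [map_sub, map_smul, h1, smul_eq_mul, mul_one, sub_self]
  have h5 := orth_of_sing h (hcon y hy1) (hcon _ h4)
    (hcon _ (by rw [map_add, hy1, h4, add_zero]))
  rw [map_sub, map_smul, h.symm u' y, hy2, smul_zero, sub_zero] at h5
  exact h5

/-- the singular vectors span -/
theorem sum_sing {e f : V} (he : Q e = 0) (hf : Q f = 0) (hef : B e f = 1) (H : AddSubgroup V)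
    (hH : ∀ v, Q v = 0 → v ∈ H) (v : V) : v ∈ H := by
  obtain ⟨w, hw⟩ : ∃ w, w = v - B f v • e - B e v • f := ⟨_, rfl⟩
  have h1 := pr_mem h.Sm (h.alt e) (h.alt f) hef v
  rw [← hw] at h1
  have hw1 : B e w = 0 := h1.1
  have hw2 : B f w = 0 := h1.2
  have h3 : v = (w + e - Q w • f) + (B f v - 1) • e + (B e v + Q w) • f := by
    rw [hw]
    module
  rw [h3]
  refine H.add_mem (H.add_mem (hH _ ?_) (hH _ ?_)) (hH _ ?_)
  · rw [h.sub, h.add, h.sm, he, hf, h.symm e w, hw1, map_smul, map_add, LinearMap.add_apply,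
      h.symm f w, hw2, hef, smul_eq_mul]
    ring
  · rw [h.sm, he, mul_zero]
  · rw [h.sm, hf, mul_zero]

end Def

section Sing

variable {K V : Type*} [Field K] [Finite K] [AddCommGroup V] [Module K V] [Module.Finite K V]
  {Q : V → K} {B : BilinForm K V} (h : Qd Q B)

include h

omit [AddCommGroup V] [Module K V] [Module.Finite K V] h in
theorem exists_sqrt (h2 : (2 : K) = 0) (a : K) : ∃ r : K, r * r = a := by
  have hinj : Function.Injective (fun r : K => r * r) := by
    intro r s hrs
    change r * r = s * s at hrs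
    have h1 : (r - s) * (r - s) = 0 := by linear_combination hrs - (r * s - s * s) * h2
    exact sub_eq_zero.mp (mul_self_eq_zero.mp h1)
  exact (Finite.injective_iff_surjective.mp hinj) a

/-- singular vectors exist -/
theorem exists_sing (hd : 3 ≤ finrank K V) : ∃ v : V, v ≠ 0 ∧ Q v = 0 := by
  by_contra hcon
  push Not at hcon
  obtain ⟨x, hx0⟩ : ∃ x : V, x ≠ 0 := by
    by_contra h0
    push Not at h0
    haveI : Subsingleton V := ⟨fun x y => by rw [h0 x, h0 y]⟩
    have h4 := Module.finrank_zero_of_subsingleton (R := K) (M := V)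
    omega
  obtain ⟨x', hx'⟩ := h.Sm.exists_one hx0
  obtain ⟨z, hz0, hxz, hxz'⟩ := exists_perp2 (B := B) hd x x'
  obtain ⟨r, hr⟩ := exists_sqrt h.two (Q z * (Q x)⁻¹)
  refine hcon (r • x + z) ?_ ?_
  · intro h0
    have h3 := congrArg (B x') h0
    rw [map_add, map_smul, h.symm x x', hx', hxz', add_zero, map_zero, smul_eq_mul,
      mul_one] at h3
    rw [h3, zero_smul, zero_add] at h0
    exact hz0 h0
  · rw [h.add, h.sm, hr, map_smul, LinearMap.smul_apply, hxz, smul_zero, add_zero,
      inv_mul_cancel_right₀ (hcon x hx0), h.addK]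

omit [Finite K] in
/-- the restricted form -/
theorem BW_qd {o o' : V} (ho : Q o = 0) (ho' : Q o' = 0) (h1 : B o o' = 1) :
    Qd (fun x : WW B o o' => Q x) (BW B o o') :=
  ⟨fun x y => h.add x y, fun a x => h.sm a x,
    (BW_sm h.Sm (h.alt o) (h.alt o') h1).nd, h.two⟩

omit [Finite K] in
theorem finrank_WW {o o' : V} (h1 : B o o' = 1) :
    finrank K V = finrank K (WW B o o') + 2 := by
  have h5 := (splitE h.Sm (h.alt o) (h.alt o') h1).finrank_eq
  rw [Module.finrank_prod, Module.finrank_prod, Module.finrank_self] at h5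
  omega

/-- a singular vector orthogonal to two others -/
theorem exists_sing_perp (hd : 5 ≤ finrank K V) {y z : V} (hy : Q y = 0) (hz : Q z = 0)
    (hyz : B y z ≠ 0) : ∃ x : V, x ≠ 0 ∧ Q x = 0 ∧ B y x = 0 ∧ B z x = 0 := by
  have h1 : B y ((B y z)⁻¹ • z) = 1 := by
    rw [map_smul, smul_eq_mul, inv_mul_cancel₀ hyz]
  have h3 : Q ((B y z)⁻¹ • z) = 0 := by rw [h.sm, hz, mul_zero]
  have h4 := finrank_WW h h1
  obtain ⟨x, hx0, hx⟩ := exists_sing (BW_qd h hy h3 h1) (by omega)
  refine ⟨x, fun h0 => hx0 (Subtype.ext h0), hx, x.2.1, ?_⟩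
  have h5 : B ((B y z)⁻¹ • z) x = 0 := x.2.2
  rw [map_smul, LinearMap.smul_apply, smul_eq_mul] at h5
  exact (mul_eq_zero.mp h5).resolve_left (inv_ne_zero hyz)

/-- Functions on the singular vectors which are constant on orthogonal pairs are constant. -/
theorem sing_const (hd : 5 ≤ finrank K V) {α : Type*} (φ : V → α)
    (hφ : ∀ y z, y ≠ 0 → z ≠ 0 → Q y = 0 → Q z = 0 → B y z = 0 → (∀ k : K, z ≠ k • y) →
      φ y = φ z) {y z : V} (hy0 : y ≠ 0) (hz0 : z ≠ 0) (hy : Q y = 0) (hz : Q z = 0) :
    φ y = φ z := by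
  have key : ∀ y z : V, y ≠ 0 → z ≠ 0 → Q y = 0 → Q z = 0 → B y z ≠ 0 → φ y = φ z := by
    intro y z hy0 hz0 hy hz hyz
    obtain ⟨x, hx0, hx, hyx, hzx⟩ := exists_sing_perp h hd hy hz hyz
    have h1 : φ y = φ x := by
      refine hφ y x hy0 hx0 hy hx hyx ?_
      rintro k rfl
      rw [map_smul, h.symm y z, smul_eq_mul] at hzx
      have h3 : k = 0 := (mul_eq_zero.mp hzx).resolve_right hyz
      exact hx0 (by rw [h3, zero_smul])
    have h3 : φ z = φ x := by
      refine hφ z x hz0 hx0 hz hx hzx ?_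
      rintro k rfl
      rw [map_smul, smul_eq_mul] at hyx
      have h3 : k = 0 := (mul_eq_zero.mp hyx).resolve_right hyz
      exact hx0 (by rw [h3, zero_smul])
    rw [h1, h3]
  by_cases hyz : B y z = 0
  · by_cases hk : ∃ k : K, z = k • y
    · obtain ⟨k, rfl⟩ := hk
      obtain ⟨y', h1, h3⟩ := h.exists_pair hy0 hy
      have hy'0 : y' ≠ 0 := by
        rintro rfl
        rw [map_zero] at h1
        exact zero_ne_one h1
      have hk0 : k ≠ 0 := by
        rintro rfl
        exact hz0 (zero_smul _ _)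
      rw [key y y' hy0 hy'0 hy h3 (by rw [h1]; exact one_ne_zero)]
      refine key _ _ hy'0 hz0 h3 hz ?_
      rw [map_smul, h.symm y y', h1, smul_eq_mul, mul_one]
      exact hk0
    · push Not at hk
      exact hφ y z hy0 hz0 hy hz hyz hk
  · exact key y z hy0 hz0 hy hz hyz

/-- A singular vector which is not orthogonal to two others. -/
theorem exists_sing_ne (hd : 3 ≤ finrank K V) {u w : V} (hu0 : u ≠ 0) (hw0 : w ≠ 0)
    (hu : Q u = 0) (hw : Q w = 0) : ∃ z : V, Q z = 0 ∧ B u z ≠ 0 ∧ B w z ≠ 0 := by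
  by_cases huw : B u w = 0
  · by_cases hk : ∃ k : K, w = k • u
    · obtain ⟨k, rfl⟩ := hk
      obtain ⟨z, h1, h3⟩ := h.exists_pair hu0 hu
      have hk0 : k ≠ 0 := by
        rintro rfl
        exact hw0 (zero_smul _ _)
      refine ⟨z, h3, by rw [h1]; exact one_ne_zero, ?_⟩
      rw [map_smul, LinearMap.smul_apply, h1, smul_eq_mul, mul_one]
      exact hk0
    · push Not at hk
      obtain ⟨z, h1, h3⟩ := exists_one_one h.Sm hu0 hk
      refine ⟨z - Q z • u, ?_, ?_, ?_⟩
      · rw [h.sub, h.sm, hu, map_smul, h1, smul_eq_mul]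
        ring
      · rw [map_sub, map_smul, h.alt, h.symm z u, h1, smul_zero, sub_zero]
        exact one_ne_zero
      · rw [map_sub, map_smul, h.symm u w, huw, h.symm z w, h3, smul_zero, sub_zero]
        exact one_ne_zero
  · obtain ⟨y, hy1, hy2, hy3⟩ : ∃ y, B u y = 0 ∧ B w y = 0 ∧ Q y ≠ 0 := by
      by_contra hcon
      push Not at hcon
      obtain ⟨y, hy0, hy1, hy2⟩ := exists_perp2 (B := B) hd u w
      apply hy0
      apply h.nd
      intro x
      obtain ⟨x', hx'⟩ : ∃ x', x' = x - ((B u w)⁻¹ * B w x) • u - ((B u w)⁻¹ * B u x) • w :=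
        ⟨_, rfl⟩
      have e1 : B u x' = 0 := by
        rw [hx', map_sub, map_sub, map_smul, map_smul, h.alt, smul_zero, sub_zero, smul_eq_mul]
        field_simp
        ring
      have e2 : B w x' = 0 := by
        rw [hx', map_sub, map_sub, map_smul, map_smul, h.alt, h.symm u w, smul_zero, sub_zero,
          smul_eq_mul]
        field_simp
        ring
      have h5 := orth_of_sing h (hcon y hy1 hy2) (hcon _ e1 e2)
        (hcon _ (by rw [map_add, hy1, e1, add_zero]) (by rw [map_add, hy2, e2, add_zero]))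
      rw [hx', map_sub, map_sub, map_smul, map_smul, h.symm u y, h.symm w y, hy1, hy2, smul_zero,
        smul_zero, sub_zero, sub_zero] at h5
      exact h5
    refine ⟨u - (Q y * (B u w)⁻¹) • w + y, ?_, ?_, ?_⟩
    · rw [h.add, h.sub, h.sm, hu, hw, map_smul, map_sub, map_smul, LinearMap.sub_apply,
        LinearMap.smul_apply, hy1, hy2, smul_eq_mul, smul_zero]
      field_simp
      ring
    · rw [map_add, map_sub, map_smul, h.alt, hy1, smul_eq_mul, zero_sub, add_zero]
      exact neg_ne_zero.mpr (mul_ne_zero (mul_ne_zero hy3 (inv_ne_zero huw)) huw)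
    · rw [map_add, map_sub, map_smul, h.alt, hy2, smul_zero, sub_zero, add_zero, h.symm u w]
      exact huw

/-- Additive maps which stabilise the singular points. -/
theorem add_of_points (hd : 5 ≤ finrank K V) {z : V → V} (hadd : ∀ x y, z (x + y) = z x + z y)
    (hz : ∀ v : V, v ≠ 0 → Q v = 0 → ∃ k : K, z v = k • v) : ∃ k : K, ∀ v, z v = k • v := by
  have z0 : z 0 = 0 := by
    have := hadd 0 0
    rw [add_zero] at this
    exact add_eq_left.mp this.symm
  have zneg : ∀ x, z (-x) = - z x := by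
    intro x
    have h1 := hadd (-x) x
    rw [neg_add_cancel, z0] at h1
    exact eq_neg_of_add_eq_zero_left h1.symm
  have h3 : ∀ v : V, ∃ k : K, v ≠ 0 → Q v = 0 → z v = k • v := by
    intro v
    by_cases hv : v ≠ 0 ∧ Q v = 0
    · obtain ⟨k, hk⟩ := hz v hv.1 hv.2
      exact ⟨k, fun _ _ => hk⟩
    · exact ⟨0, fun h3 h4 => absurd ⟨h3, h4⟩ hv⟩
  choose φ hφ using h3
  have h4 : ∀ {v w : V}, v ≠ 0 → w ≠ 0 → Q v = 0 → Q w = 0 → φ v = φ w := by
    intro v w hv0 hw0 hv hw
    refine sing_const h hd φ ?_ hv0 hw0 hv hw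
    intro y z' hy0 hz0 hy hz hyz hk
    have e0 : y + z' ≠ 0 := by
      intro h5
      apply hk (-1)
      rw [neg_one_smul]
      exact eq_neg_of_add_eq_zero_right h5
    have e1 : Q (y + z') = 0 := by rw [h.add, hy, hz, hyz]; ring
    have e2 := hφ (y + z') e0 e1
    rw [hadd, hφ y hy0 hy, hφ z' hz0 hz] at e2
    have e3 : (φ y - φ (y + z')) • y = (φ (y + z') - φ z') • z' := by
      have e4 : φ y • y + φ z' • z' - φ (y + z') • (y + z') = 0 := by rw [e2, sub_self]
      have e5 : (φ y - φ (y + z')) • y - (φ (y + z') - φ z') • z' =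
        φ y • y + φ z' • z' - φ (y + z') • (y + z') := by module
      rw [e4] at e5
      exact sub_eq_zero.mp e5
    have e6 : φ (y + z') - φ z' = 0 := by
      by_contra e7
      apply hk ((φ (y + z') - φ z')⁻¹ * (φ y - φ (y + z')))
      rw [mul_smul, e3, smul_smul, inv_mul_cancel₀ e7, one_smul]
    rw [e6, zero_smul] at e3
    have e7 := (smul_eq_zero.mp e3).resolve_right hy0
    rw [sub_eq_zero.mp e7, sub_eq_zero.mp e6]
  obtain ⟨e, he0, he⟩ := exists_sing h (by omega : 3 ≤ finrank K V)
  obtain ⟨f, hef, hf⟩ := h.exists_pair he0 he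
  refine ⟨φ e, fun v => ?_⟩
  let H : AddSubgroup V :=
    { carrier := {v | z v = φ e • v}
      zero_mem' := by
        change z 0 = φ e • (0 : V)
        rw [z0, smul_zero]
      add_mem' := by
        intro x y hx hy
        change z (x + y) = φ e • (x + y)
        rw [hadd, hx, hy, smul_add]
      neg_mem' := by
        intro x hx
        change z (-x) = φ e • (-x)
        rw [zneg, hx, smul_neg] }
  exact sum_sing h he hf hef H (fun v hv => by
    change z v = φ e • v
    by_cases hv0 : v = 0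
    · rw [hv0, z0, smul_zero]
    · rw [hφ v hv0 hv, h4 hv0 he0 hv he]) v

end Sing

section Rho

variable {K V : Type*} [Field K] [AddCommGroup V] [Module K V] {Q : V → K} {B : BilinForm K V}

/-- the isometry group -/
def OG (Q : V → K) : Subgroup (V ≃ₗ[K] V) where
  carrier := {g | ∀ x, Q (g x) = Q x}
  one_mem' := fun x => rfl
  mul_mem' := by
    intro g g' hg hh x
    rw [LinearEquiv.mul_apply, hg, hh]
  inv_mem' := by
    intro g hg x
    have h1 : ∀ z, g (g⁻¹ z) = z := g.apply_symm_apply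
    rw [← hg, h1]

theorem mem_OG {g : V ≃ₗ[K] V} : g ∈ OG Q ↔ ∀ x, Q (g x) = Q x := Iff.rfl

/-- the rank -/
def ER (g : V ≃ₗ[K] V) : Prop :=
  Even (finrank K (LinearMap.range ((g : V →ₗ[K] V) - 1)))

/-- the maps -/
def rl (Q : V → K) (B : BilinForm K V) (u y : V) : V →ₗ[K] V where
  toFun x := x + B x u • y - (B x y + Q y * B x u) • u
  map_add' := by
    intro a b
    simp only [map_add, LinearMap.add_apply]
    module
  map_smul' := by
    intro c a
    simp only [map_smul, LinearMap.smul_apply, smul_eq_mul, RingHom.id_apply]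
    module

theorem rl_apply (Q : V → K) (B : BilinForm K V) (u y x : V) :
    rl Q B u y x = x + B x u • y - (B x y + Q y * B x u) • u := rfl

variable (h : Qd Q B)

include h

theorem OG_iso {g : V ≃ₗ[K] V} (hg : g ∈ OG Q) (x y : V) : B (g x) (g y) = B x y := by
  have h1 := h.add (g x) (g y)
  rw [← map_add, mem_OG.mp hg, mem_OG.mp hg, mem_OG.mp hg, h.add x y] at h1
  linear_combination -h1

theorem rl_add {u y y' : V} (hu : Q u = 0) (hy : B u y = 0) (hy' : B u y' = 0) (x : V) :
    rl Q B u y (rl Q B u y' x) = rl Q B u (y + y') x := by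
  rw [rl_apply, rl_apply, rl_apply, h.add]
  simp only [map_add, map_sub, map_smul, LinearMap.add_apply, LinearMap.sub_apply,
    LinearMap.smul_apply, smul_eq_mul, h.alt, hy, hy', h.symm u y, h.symm u y']
  rw [h.symm y y', mul_zero, mul_zero, add_zero, sub_zero]
  have e1 : (Q y + Q y' + B y y') * B x u = Q y * B x u + Q y' * B x u + B y y' * B x u := by
    ring
  rw [e1, sub_zero]
  module

theorem rl_zero (u x : V) : rl Q B u 0 x = x := by
  rw [rl_apply, smul_zero, map_zero, h.zero, zero_mul, add_zero, add_zero, zero_smul,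
    sub_zero]

theorem rl_iso {u y : V} (hu : Q u = 0) (hy : B u y = 0) (x : V) : Q (rl Q B u y x) = Q x := by
  rw [rl_apply, h.sub, h.add, h.sm, h.sm, hu, map_smul, map_smul, map_add, map_smul,
    LinearMap.add_apply, LinearMap.smul_apply, h.symm u y, hy, smul_eq_mul, smul_eq_mul,
    smul_eq_mul]
  ring

/-- the rank of the elements -/
theorem rl_rank {u y : V} (hu0 : u ≠ 0) (hy : B u y = 0) (huy : ∀ k : K, y ≠ k • u) :
    finrank K (LinearMap.range (rl Q B u y - 1)) = 2 := by
  have e1 : ∀ x, (rl Q B u y - 1) x = B x u • y - (B x y + Q y * B x u) • u := by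
    intro x
    change rl Q B u y x - x = _
    rw [rl_apply]
    abel
  have hli : LinearIndependent K ![u, y] := by
    rw [LinearIndependent.pair_iff]
    intro s t hst
    have ht : t = 0 := by
      by_contra ht
      apply huy (-(t⁻¹ * s))
      have h3 : y = t⁻¹ • (t • y) := by rw [smul_smul, inv_mul_cancel₀ ht, one_smul]
      have h4 : t • y = - (s • u) := eq_neg_of_add_eq_zero_right hst
      rw [h3, h4]
      module
    rw [ht, zero_smul, add_zero] at hst
    exact ⟨(smul_eq_zero.mp hst).resolve_right hu0, ht⟩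
  have hr : LinearMap.range (rl Q B u y - 1) = Submodule.span K (Set.range ![u, y]) := by
    apply le_antisymm
    · rintro _ ⟨x, rfl⟩
      rw [e1]
      refine Submodule.sub_mem _ (Submodule.smul_mem _ _ ?_) (Submodule.smul_mem _ _ ?_)
      · exact Submodule.subset_span ⟨1, rfl⟩
      · exact Submodule.subset_span ⟨0, rfl⟩
    · obtain ⟨x₁, h3, h4⟩ := exists_dual h.Sm hu0 huy
      have h5 : u ∈ LinearMap.range (rl Q B u y - 1) := by
        refine ⟨-x₁, ?_⟩
        rw [e1, map_neg, LinearMap.neg_apply, LinearMap.neg_apply, h3, h4]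
        module
      obtain ⟨x₂, h6⟩ := h.Sm.exists_one hu0
      have h7 : y ∈ LinearMap.range (rl Q B u y - 1) := by
        have h8 : (rl Q B u y - 1) x₂ + (B x₂ y + Q y * B x₂ u) • u = y := by
          rw [e1, h.symm u x₂, h6, one_smul, sub_add_cancel]
        have h9 : (rl Q B u y - 1) x₂ + (B x₂ y + Q y * B x₂ u) • u ∈
            LinearMap.range (rl Q B u y - 1) :=
          Submodule.add_mem _ ⟨x₂, rfl⟩ (Submodule.smul_mem _ _ h5)
        rwa [h8] at h9
      rw [Submodule.span_le]
      rintro _ ⟨i, rfl⟩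
      fin_cases i
      · exact h5
      · exact h7
  rw [hr, finrank_span_eq_card hli, Fintype.card_fin]

/-- the element of the group -/
theorem exists_rl {u y : V} (hu : Q u = 0) (hy : B u y = 0) :
    ∃ g : V ≃ₗ[K] V, g ∈ OG Q ∧ ER g ∧ g ^ 2 = 1 ∧ ∀ x, g x = rl Q B u y x := by
  have hneg : B u (-y) = 0 := by rw [map_neg, hy, neg_zero]
  let g : V ≃ₗ[K] V := LinearEquiv.ofLinear (rl Q B u y) (rl Q B u (-y))
    (LinearMap.ext fun x => by
      rw [LinearMap.comp_apply, rl_add h hu hy hneg, add_neg_cancel, rl_zero h]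
      rfl)
    (LinearMap.ext fun x => by
      rw [LinearMap.comp_apply, rl_add h hu hneg hy, neg_add_cancel, rl_zero h]
      rfl)
  have hg : ∀ x, g x = rl Q B u y x := fun x => rfl
  have hgl : (g : V →ₗ[K] V) = rl Q B u y := LinearMap.ext hg
  refine ⟨g, fun x => by rw [hg, rl_iso h hu hy], ?_, ?_, hg⟩
  · unfold ER
    rw [hgl]
    by_cases hu0 : u = 0
    · have h1 : rl Q B u y - 1 = 0 := by
        apply LinearMap.ext
        intro x
        change rl Q B u y x - x = 0
        rw [rl_apply, hu0, map_zero, zero_smul, smul_zero, add_zero, sub_zero, sub_self]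
      rw [h1, LinearMap.range_zero, finrank_bot]
      exact Even.zero
    · by_cases huy : ∃ k : K, y = k • u
      · obtain ⟨k, rfl⟩ := huy
        have h1 : rl Q B u (k • u) - 1 = 0 := by
          apply LinearMap.ext
          intro x
          change rl Q B u (k • u) x - x = 0
          rw [rl_apply, h.sm, hu, map_smul, smul_eq_mul, mul_zero, zero_mul, add_zero]
          module
        rw [h1, LinearMap.range_zero, finrank_bot]
        exact Even.zero
      · push Not at huy
        rw [rl_rank h hu0 hy huy]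
        exact even_two
  · apply LinearEquiv.ext
    intro x
    rw [pow_two, LinearEquiv.mul_apply, hg, hg, rl_add h hu hy hy, h.addV, rl_zero h]
    rfl

/-- the images -/
theorem rl_eq {u y w z : V} (hu0 : u ≠ 0) (huw : ∀ k : K, w ≠ k • u)
    (hw0 : w ≠ 0) (hh : ∀ x, rl Q B u y x = rl Q B w z x) : ∃ a b : K, y = a • u + b • w := by
  have huw' : ∀ k : K, u ≠ k • w := by
    intro k hk
    have hk0 : k ≠ 0 := by
      rintro rfl
      exact hu0 (by rw [hk, zero_smul])
    exact huw k⁻¹ (by rw [hk, smul_smul, inv_mul_cancel₀ hk0, one_smul])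
  obtain ⟨x, hx1, hx2⟩ := exists_dual h.Sm hw0 huw'
  have h1 := hh x
  rw [rl_apply, rl_apply, hx1, hx2, one_smul, zero_smul, mul_zero, mul_one, add_zero,
    add_zero] at h1
  refine ⟨B x y + Q y, - B x z, ?_⟩
  calc y = (x + y - (B x y + Q y) • u) - x + (B x y + Q y) • u := by abel
    _ = (x - B x z • w) - x + (B x y + Q y) • u := by rw [h1]
    _ = _ := by module

end Rho

end Vale.Agent.P180.R2.H589.Oe
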