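import Vale.Agent.P180.R2.H589.Oe.Cls

/-!
P180: automorphisms of `Ω(Q)`, characteristic two: abelian radical subgroups, second part.
-/

set_option linter.all false

namespace Vale.Agent.P180.R2.H589.Oe

open Subgroup Module
open LinearMap (BilinForm)
open Vale.Agent.P180.R2.H589.Sch
open Vale.Agent.P180.R2.H589.Sp (finite_gl)
open Vale.Agent.P180.R2.H589.Oa (nondeg isRefl pel_of_nil Phi Phi.map mem_map_aut mem_norm_map VU
  mem_VU exists_smul_of_perp exists_dual)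

section VU

variable {K V : Type*} [Field K] [AddCommGroup V] [Module K V] [CharP K 2]
  {Q : V → K} {B : BilinForm K V} {X : Subgroup (V ≃ₗ[K] V)} (c : Ctx Q B X)

include c

theorem isPGroup_VU {U : Submodule K V} : IsPGroup 2 (VU B X U) := by
  rw [Bt.isPGroup_iff]
  rintro g ⟨h1, h2⟩
  obtain ⟨n, hn⟩ : Pel 2 (g : V ≃ₗ[K] V) := by
    apply pel_of_nil
    apply LinearMap.ext
    intro x
    have e1 : ∀ x, (((g : V ≃ₗ[K] V) : V →ₗ[K] V) - 1) x = (g : V ≃ₗ[K] V) x - x := fun x => rfl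
    have e2 : (g : V ≃ₗ[K] V) x - x ∈ B.orthogonal U := by
      intro u hu
      rw [map_sub]
      nth_rewrite 1 [← h1 u hu]
      rw [iso c, sub_self]
    change (((g : V ≃ₗ[K] V) : V →ₗ[K] V) - 1) ((((g : V ≃ₗ[K] V) : V →ₗ[K] V) - 1)
      ((((g : V ≃ₗ[K] V) : V →ₗ[K] V) - 1) x)) = 0
    rw [e1, e1, e1, h1 _ (h2 _ e2), sub_self]
  exact ⟨n, Subtype.ext (by rw [Subgroup.coe_pow, hn]; rfl)⟩

omit [CharP K 2] in
/-- normalisation -/
theorem VU_conj {U : Submodule K V} {g : X} (hg : ∀ x, (g : V ≃ₗ[K] V) x ∈ U ↔ x ∈ U) {r : X}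
    (hr : r ∈ VU B X U) : g * r * g⁻¹ ∈ VU B X U := by
  have e1 : ∀ x, ((g * r * g⁻¹ : X) : V ≃ₗ[K] V) x =
      (g : V ≃ₗ[K] V) ((r : V ≃ₗ[K] V) ((g : V ≃ₗ[K] V).symm x)) := fun x => rfl
  have e2 : ∀ x, (g : V ≃ₗ[K] V) ((g : V ≃ₗ[K] V).symm x) = x :=
    (g : V ≃ₗ[K] V).apply_symm_apply
  refine ⟨fun x hx => ?_, fun x hx => ?_⟩
  · rw [e1, hr.1 _ ((hg _).mp (by rw [e2]; exact hx)), e2]
  · have h1 : (g : V ≃ₗ[K] V).symm x ∈ B.orthogonal U := by
      intro u hu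
      rw [← iso c g, e2]
      exact hx _ ((hg u).mpr hu)
    have h3 := (hg _).mpr (hr.2 _ h1)
    rw [map_sub, e2] at h3
    rw [e1]
    exact h3

omit [CharP K 2] in
theorem rX_mem_VU {U : Submodule K V} (hU : ∀ x ∈ U, ∀ y ∈ U, B x y = 0) {u y : V} (hu : u ∈ U)
    (hQu : Q u = 0) (hy : y ∈ B.orthogonal U) : rX Q B X u y ∈ VU B X U := by
  have huy : B u y = 0 := hy u hu
  refine ⟨fun x hx => ?_, fun x hx => ?_⟩
  · rw [rX_apply c hQu huy, rl_apply, hU x hx u hu, hy x hx, mul_zero, add_zero, zero_smul,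
      zero_smul, add_zero, sub_zero]
  · have h1 : B x u = 0 := by rw [c.qd.symm u x]; exact hx u hu
    rw [rX_apply c hQu huy, rl_apply, h1, mul_zero, add_zero, zero_smul, add_zero,
      sub_sub_cancel_left]
    exact U.neg_mem (U.smul_mem _ hu)

omit [CharP K 2] in
/-- two elements which do not commute -/
theorem not_comm {u₁ u₂ y y' : V} (hu0 : u₂ ≠ 0) (hu : ∀ k : K, u₁ ≠ k • u₂) (h11 : Q u₁ = 0)
    (h22 : Q u₂ = 0) (h12 : B u₁ u₂ = 0) (h1y : B u₁ y = 0) (h2y : B u₂ y = 0)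
    (h1y' : B u₁ y' = 0) (h2y' : B u₂ y' = 0) (hy : B y' y ≠ 0)
    (hc : rX Q B X u₁ y * rX Q B X u₂ y' = rX Q B X u₂ y' * rX Q B X u₁ y) : False := by
  have h1 := conj_eq c hc
  have e1 : (rX Q B X u₁ y : V ≃ₗ[K] V) u₂ = u₂ := by
    rw [rX_apply c h11 h1y, rl_apply, c.qd.symm u₁ u₂, h12, h2y, mul_zero, add_zero, zero_smul,
      zero_smul, add_zero, sub_zero]
  have e2 : (rX Q B X u₁ y : V ≃ₗ[K] V) y' = y' - B y' y • u₁ := by
    rw [rX_apply c h11 h1y, rl_apply, c.qd.symm u₁ y', h1y', mul_zero, add_zero, zero_smul,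
      add_zero]
  rw [rX_conj c _ h22 h2y', e1, e2] at h1
  obtain ⟨k, hk⟩ := rX_inj c hu0 h22 (by
    rw [map_sub, map_smul, h2y', c.qd.symm u₁ u₂, h12, smul_zero, sub_zero]) h2y' h1
  apply hu (-(B y' y)⁻¹ * k)
  have h3 : B y' y • u₁ = - (k • u₂) := by
    have h4 : y' - B y' y • u₁ - (y' + k • u₂) = 0 := by rw [hk, sub_self]
    have h5 : B y' y • u₁ = - (k • u₂) - (y' - B y' y • u₁ - (y' + k • u₂)) := by abel
    rw [h5, h4, sub_zero]
  have h4 : u₁ = (B y' y)⁻¹ • (B y' y • u₁) := by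
    rw [smul_smul, inv_mul_cancel₀ hy, one_smul]
  rw [h4, h3]
  module

end VU

section Cls

variable {K V : Type*} [Field K] [Finite K] [AddCommGroup V] [Module K V] [Module.Finite K V]
  [CharP K 2] {Q : V → K} {B : BilinForm K V} {X : Subgroup (V ≃ₗ[K] V)} (c : Ctx Q B X)

include c

/-- **Abelian radical subgroups.** -/
theorem eq_RT_of_Phi (hd : 7 ≤ finrank K V) (hd8 : finrank K V ≠ 8) {P : Subgroup X}
    (hcen : ∀ u : V, u ≠ 0 → Q u = 0 → ∀ t, (∀ s ∈ RT Q B X u, t * s = s * t) → t ∈ RT Q B X u)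
    (hP : Phi 2 (Nat.card K) P) : ∃ u : V, u ≠ 0 ∧ Q u = 0 ∧ P = RT Q B X u := by
  haveI : Finite V := Module.finite_of_finite K
  haveI : Finite (V ≃ₗ[K] V) := finite_gl
  have hB := c.qd.Sm
  obtain ⟨U, ⟨u₀, hu₀, hu₀0⟩, hUs, hUi⟩ := exists_inv c hP.rad.1 hP.ne
  have hUU : ∀ x ∈ U, ∀ y ∈ U, B x y = 0 := fun x hx y hy =>
    orth_of_sing c.qd (hUs x hx) (hUs y hy) (hUs _ (U.add_mem hx hy))
  have hle : VU B X U ≤ P := by
    refine Bt.le_of_rad hP.rad (isPGroup_VU c) ?_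
    intro t ht
    have h1 : ∀ {g : X}, g ∈ normalizer (P : Set X) → ∀ s ∈ VU B X U,
        g * s * g⁻¹ ∈ VU B X U := fun {g} hg s hs => VU_conj c (hUi.iff hg) hs
    rw [mem_normalizer_iff]
    intro s
    constructor
    · exact h1 ht s
    · intro hs
      have h3 := h1 (g := t⁻¹) (Subgroup.inv_mem _ ht) _ hs
      have h4 : t⁻¹ * (t * s * t⁻¹) * t⁻¹⁻¹ = s := by group
      rwa [h4] at h3
  have hrP : ∀ u ∈ U, ∀ y ∈ B.orthogonal U, rX Q B X u y ∈ P := fun u hu y hy =>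
    hle (rX_mem_VU c hUU hu (hUs u hu) hy)
  have hu₀s : Q u₀ = 0 := hUs u₀ hu₀
  by_cases hU1 : ∀ x ∈ U, ∃ k : K, x = k • u₀
  · -- a line
    refine ⟨u₀, hu₀0, hu₀s, ?_⟩
    have h1 : RT Q B X u₀ ≤ P := by
      intro t ht
      obtain ⟨y, hy, rfl⟩ := (mem_RT c hu₀s).mp ht
      refine hrP u₀ hu₀ y fun x hx => ?_
      obtain ⟨k, rfl⟩ := hU1 x hx
      rw [map_smul, LinearMap.smul_apply, hy, smul_zero]
    refine le_antisymm (fun t ht => ?_) h1
    exact hcen u₀ hu₀0 hu₀s t fun s hs => hP.ab t ht s (h1 hs)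
  exfalso
  push Not at hU1
  obtain ⟨u₁, hu₁, hu₁k⟩ := hU1
  by_cases hUp : B.orthogonal U ≤ U
  · -- maximal totally singular subspaces
    have hUo : B.orthogonal U = U := le_antisymm hUp fun x hx y hy => hUU y hy x hx
    have hfin : finrank K V = 2 * finrank K U := by
      have h1 := LinearMap.BilinForm.finrank_orthogonal (nondeg hB) U
      rw [hUo] at h1
      have h3 := Submodule.finrank_le U
      omega
    have h5 : 5 ≤ finrank K U := by omega
    obtain ⟨a, hua, haa⟩ := c.qd.exists_pair hu₀0 hu₀s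
    obtain ⟨u₂, hu₂, hu₂0, hau₂⟩ : ∃ u₂ ∈ U, u₂ ≠ 0 ∧ B a u₂ = 0 := by
      have h1 : LinearMap.ker ((B a).comp U.subtype) ≠ ⊥ := by
        apply LinearMap.ker_ne_bot_of_finrank_lt
        rw [Module.finrank_self]
        omega
      obtain ⟨z, hz, hz0⟩ := Submodule.exists_mem_ne_zero_of_ne_bot h1
      exact ⟨z, z.2, fun h0 => hz0 (Subtype.ext h0), hz⟩
    have hau : B a u₀ = 1 := by rw [hB.symm, hua]
    have hu02 : B u₀ u₂ = 0 := hUU u₀ hu₀ u₂ hu₂
    have hu22 : Q u₂ = 0 := hUs u₂ hu₂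
    obtain ⟨b₀, hb₀⟩ := hB.exists_one hu₂0
    obtain ⟨b₁, hb₁⟩ : ∃ b₁, b₁ = b₀ - B u₀ b₀ • a - B a b₀ • u₀ := ⟨_, rfl⟩
    have e1 : B u₀ b₁ = 0 := by
      rw [hb₁, map_sub, map_sub, map_smul, map_smul, hua, c.qd.alt, smul_zero, sub_zero,
        smul_eq_mul, mul_one, sub_self]
    have e2 : B a b₁ = 0 := by
      rw [hb₁, map_sub, map_sub, map_smul, map_smul, c.qd.alt, hau, smul_zero, sub_zero,
        smul_eq_mul, mul_one, sub_self]
    have e3 : B u₂ b₁ = 1 := by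
      rw [hb₁, map_sub, map_sub, map_smul, map_smul, hb₀, hB.symm a u₂, hau₂, hB.symm u₀ u₂, hu02,
        smul_zero, smul_zero, sub_zero, sub_zero]
    obtain ⟨b, hb⟩ : ∃ b, b = b₁ - Q b₁ • u₂ := ⟨_, rfl⟩
    have f1 : B u₀ b = 0 := by rw [hb, map_sub, map_smul, e1, hu02, smul_zero, sub_zero]
    have f2 : B a b = 0 := by rw [hb, map_sub, map_smul, e2, hau₂, smul_zero, sub_zero]
    have f3 : B u₂ b = 1 := by rw [hb, map_sub, map_smul, e3, c.qd.alt, smul_zero, sub_zero]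
    have f4 : Q b = 0 := by
      rw [hb, c.qd.sub, c.qd.sm, hu22, map_smul, hB.symm u₂ b₁, e3, smul_eq_mul]
      ring
    -- the element
    have htN : rX Q B X a b ∉ normalizer (P : Set X) := by
      intro hN
      have h1 := hUi _ hN u₀ hu₀
      rw [rX_apply c haa f2, rl_apply, hua, f1, f4, one_smul, zero_mul, add_zero,
        zero_smul, sub_zero] at h1
      have h3 : b ∈ U := by
        have h4 := U.sub_mem h1 hu₀
        rwa [add_sub_cancel_left] at h4
      have h4 := hUU u₂ hu₂ b h3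
      rw [f3] at h4
      exact one_ne_zero h4
    have hcard := hP.card _ htN
    -- the subspace
    obtain ⟨f, hf⟩ : ∃ f : U →ₗ[K] K × K, f = ((B a).prod (B b)).comp U.subtype := ⟨_, rfl⟩
    have hfa : ∀ x ∈ LinearMap.ker f, B a (x : V) = 0 ∧ B b (x : V) = 0 := by
      intro x hx
      rw [hf] at hx
      have h1 : ((B a).prod (B b)) (x : V) = 0 := hx
      exact ⟨congrArg Prod.fst h1, congrArg Prod.snd h1⟩
    have hker : 3 ≤ finrank K (LinearMap.ker f) := by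
      have h1 := f.finrank_range_add_finrank_ker
      have h3 : finrank K (LinearMap.range f) ≤ 2 := by
        have h4 := Submodule.finrank_le (LinearMap.range f)
        rw [Module.finrank_prod, Module.finrank_self] at h4
        omega
      omega
    obtain ⟨w₀, hw₀0⟩ : ∃ w₀ : LinearMap.ker f, w₀ ≠ 0 := by
      by_contra hcon
      push Not at hcon
      haveI : Subsingleton (LinearMap.ker f) := ⟨fun x y => by rw [hcon x, hcon y]⟩
      have h4 := Module.finrank_zero_of_subsingleton (R := K) (M := LinearMap.ker f)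
      omega
    obtain ⟨u, hu⟩ : ∃ u : V, u = ((w₀ : U) : V) := ⟨_, rfl⟩
    have huU : u ∈ U := by rw [hu]; exact (w₀ : U).2
    have hu0 : u ≠ 0 := by
      rw [hu]
      intro h0
      exact hw₀0 (Subtype.ext (Subtype.ext h0))
    have hus : Q u = 0 := hUs u huU
    obtain ⟨u', hu'⟩ := hB.exists_one hu0
    have hmem : ∀ w : LinearMap.ker f, B u ((w : U) : V) = 0 := fun w => hUU u huU _ (w : U).2
    have hfix : ∀ w : LinearMap.ker f, (rX Q B X a b : V ≃ₗ[K] V) ((w : U) : V) =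
        ((w : U) : V) := by
      intro w
      obtain ⟨h1, h3⟩ := hfa w w.2
      rw [rX_apply c haa f2, rl_apply, hB.symm a, hB.symm b, h1, h3, mul_zero, add_zero, zero_smul,
        zero_smul, add_zero, sub_zero]
    have hin : ∀ w : LinearMap.ker f, rX Q B X u ((w : U) : V) ∈
        P ⊓ centralizer {rX Q B X a b} := by
      intro w
      refine ⟨hrP u huU _ (by rw [hUo]; exact (w : U).2), mem_centralizer_iff.mpr ?_⟩
      rintro _ rfl
      rw [← mul_inv_eq_iff_eq_mul, rX_conj c _ hus (hmem w), hfix, hu, hfix]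
    let F' : LinearMap.ker f → (P ⊓ centralizer {rX Q B X a b} : Subgroup X) × K :=
      fun w => (⟨_, hin w⟩, B u' ((w : U) : V))
    have hinj : Function.Injective F' := by
      intro w w' hww
      have h1 : rX Q B X u ((w : U) : V) = rX Q B X u ((w' : U) : V) :=
        congrArg (fun z : (P ⊓ centralizer {rX Q B X a b} : Subgroup X) × K => (z.1 : X)) hww
      have h3 : B u' ((w : U) : V) = B u' ((w' : U) : V) := congrArg Prod.snd hww
      obtain ⟨k, hk⟩ := rX_inj c hu0 hus (hmem w) (hmem w') h1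
      rw [hk, map_add, map_smul, hB.symm u u', hu', smul_eq_mul, mul_one] at h3
      have h4 : k = 0 := add_eq_left.mp h3
      rw [h4, zero_smul, add_zero] at hk
      exact Subtype.ext (Subtype.ext hk)
    have hc1 := Nat.card_le_card_of_injective F' hinj
    rw [Nat.card_prod, Module.natCard_eq_pow_finrank (K := K) (V := LinearMap.ker f)] at hc1
    have hK1 : 1 < Nat.card K := Finite.one_lt_card
    have hc2 : Nat.card K ^ 3 ≤ Nat.card K ^ finrank K (LinearMap.ker f) :=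
      Nat.pow_le_pow_right (by omega) hker
    have hc3 := Nat.mul_le_mul_right (Nat.card K) hcard
    have hc4 : Nat.card K * Nat.card K < Nat.card K ^ 3 := by
      have h9 : Nat.card K * Nat.card K = Nat.card K ^ 2 := (pow_two _).symm
      rw [h9]
      exact Nat.pow_lt_pow_right hK1 (by norm_num)
    omega
  · -- not abelian
    obtain ⟨y, hy, hyU⟩ : ∃ y ∈ B.orthogonal U, y ∉ U := Set.not_subset.mp hUp
    obtain ⟨y', hy', hyy⟩ : ∃ y' ∈ B.orthogonal U, B y' y ≠ 0 := by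
      by_contra hcon
      push Not at hcon
      apply hyU
      rw [← LinearMap.BilinForm.orthogonal_orthogonal (nondeg hB) (isRefl hB) U]
      exact hcon
    exact not_comm c hu₀0 hu₁k (hUs u₁ hu₁) hu₀s (hUU u₁ hu₁ u₀ hu₀) (hy u₁ hu₁)
      (hy u₀ hu₀) (hy' u₁ hu₁) (hy' u₀ hu₀) hyy
      (hP.ab _ (hrP u₁ hu₁ y hy) _ (hrP u₀ hu₀ y' hy'))

end Cls

end Vale.Agent.P180.R2.H589.Oe
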