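import Vale.Agent.P180.R2.H589.Oe.Rad

/-!
P180: automorphisms of `Ω(Q)`, characteristic two: abelian radical subgroups.
-/

set_option linter.all false

namespace Vale.Agent.P180.R2.H589.Oe

open Subgroup Module
open LinearMap (BilinForm)
open Vale.Agent.P180.R2.H589.Sch
open Vale.Agent.P180.R2.H589.Sp (finite_gl)
open Vale.Agent.P180.R2.H589.Oa (nondeg isRefl pel_of_nil Phi Phi.map mem_map_aut mem_norm_map VU
  mem_VU exists_smul_of_perp)

section Inv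

variable {K V : Type*} [Field K] [AddCommGroup V] [Module K V]
  {Q : V → K} {B : BilinForm K V} {X : Subgroup (V ≃ₗ[K] V)} (c : Ctx Q B X) {P : Subgroup X}

/-- invariant subspaces -/
def Inv (P : Subgroup X) (U : Submodule K V) : Prop :=
  ∀ g : X, g ∈ normalizer (P : Set X) → ∀ x ∈ U, (g : V ≃ₗ[K] V) x ∈ U

theorem Inv.iff {U : Submodule K V} (h : Inv P U) {g : X} (hg : g ∈ normalizer (P : Set X))
    (x : V) : (g : V ≃ₗ[K] V) x ∈ U ↔ x ∈ U := by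
  refine ⟨fun hx => ?_, h g hg x⟩
  have h3 := h g⁻¹ (Subgroup.inv_mem _ hg) _ hx
  have h4 : ((g⁻¹ : X) : V ≃ₗ[K] V) ((g : V ≃ₗ[K] V) x) = x :=
    (g : V ≃ₗ[K] V).symm_apply_apply x
  rwa [h4] at h3

theorem Inv.inf {U U' : Submodule K V} (h : Inv P U) (h' : Inv P U') : Inv P (U ⊓ U') :=
  fun g hg x hx => ⟨h g hg x hx.1, h' g hg x hx.2⟩

include c in
theorem Inv.perp {U : Submodule K V} (h : Inv P U) : Inv P (B.orthogonal U) := by
  intro g hg x hx v hv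
  have h3 : (g : V ≃ₗ[K] V) ((g : V ≃ₗ[K] V).symm v) = v :=
    (g : V ≃ₗ[K] V).apply_symm_apply v
  rw [← h3, iso c]
  refine hx _ ((h.iff hg _).mp ?_)
  rw [h3]
  exact hv

/-- the fixed space -/
def Fx (Y : Subgroup X) : Submodule K V where
  carrier := {x | ∀ y ∈ Y, (y : V ≃ₗ[K] V) x = x}
  zero_mem' := fun y _ => map_zero _
  add_mem' := by
    intro a b ha hb y hy
    rw [map_add, ha y hy, hb y hy]
  smul_mem' := by
    intro c a ha y hy
    rw [map_smul, ha y hy]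

theorem conj_apply' (g y : X) (x : V) : (y : V ≃ₗ[K] V) ((g : V ≃ₗ[K] V) x) =
    (g : V ≃ₗ[K] V) (((g⁻¹ * y * g : X) : V ≃ₗ[K] V) x) := by
  change _ = (g : V ≃ₗ[K] V) ((g : V ≃ₗ[K] V).symm ((y : V ≃ₗ[K] V) ((g : V ≃ₗ[K] V) x)))
  rw [LinearEquiv.apply_symm_apply]

theorem norm_conj {g : X} (hg : g ∈ normalizer (P : Set X)) {y : X} (hy : y ∈ P) :
    g⁻¹ * y * g ∈ P := by
  have h1 := (mem_normalizer_iff.mp (Subgroup.inv_mem _ hg) y).mp hy
  rwa [inv_inv] at h1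

theorem inv_Fx : Inv P (Fx P) := by
  intro g hg x hx y hy
  rw [conj_apply', hx _ (norm_conj hg hy)]

/-- the singular part of an isotropic subspace -/
def Sg (h : Qd Q B) (U : Submodule K V) (hU : ∀ x ∈ U, ∀ y ∈ U, B x y = 0) : Submodule K V where
  carrier := {x | x ∈ U ∧ Q x = 0}
  zero_mem' := ⟨U.zero_mem, h.zero⟩
  add_mem' := by
    rintro x y ⟨h1, h2⟩ ⟨h3, h4⟩
    exact ⟨U.add_mem h1 h3, by rw [h.add, h2, h4, hU x h1 y h3]; ring⟩
  smul_mem' := by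
    rintro a x ⟨h1, h2⟩
    exact ⟨U.smul_mem a h1, by rw [h.sm, h2, mul_zero]⟩

include c in
theorem inv_Sg {U : Submodule K V} {hU : ∀ x ∈ U, ∀ y ∈ U, B x y = 0} (h : Inv P U) :
    Inv P (Sg c.qd U hU) := fun g hg x hx => ⟨h g hg x hx.1, by rw [qf c]; exact hx.2⟩

variable [Finite K] [Module.Finite K V] [CharP K 2]

include c

/-- fixed vectors -/
theorem exists_fixed (hP : IsPGroup 2 P) {G : Submodule K V} (hG0 : G ≠ ⊥)
    (hG : ∀ y ∈ P, ∀ x ∈ G, (y : V ≃ₗ[K] V) x ∈ G) : ∃ x ∈ G, x ≠ 0 ∧ x ∈ Fx P := by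
  haveI : Finite V := Module.finite_of_finite K
  haveI : Finite G := inferInstance
  obtain ⟨x, hx0, hx⟩ := Bt.exists_fixed_gen hP
    (fun (y : P) (x : G) => (⟨((y : X) : V ≃ₗ[K] V) x, hG y y.2 x x.2⟩ : G))
    (fun x => rfl) (fun y z x => rfl)
    (by
      rw [Module.natCard_eq_pow_finrank (K := K)]
      refine dvd_pow Bt.dvd_card_K ?_
      intro h0
      exact hG0 (Submodule.finrank_eq_zero.mp h0)) (x₀ := (0 : G))
    (fun y => Subtype.ext (map_zero _))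
  exact ⟨x, x.2, fun h0 => hx0 (Subtype.ext h0), fun y hy => congrArg Subtype.val (hx ⟨y, hy⟩)⟩

/-- fixed vectors modulo a line -/
theorem exists_fixed_mod (hP : IsPGroup 2 P) {x : V} (hx : x ∈ Fx P) {G : Submodule K V}
    (hG : ∀ y ∈ P, ∀ v ∈ G, (y : V ≃ₗ[K] V) v ∈ G) {v₀ : V} (hv₀ : v₀ ∈ G)
    (hv₀x : ∀ k : K, v₀ ≠ k • x) : ∃ v ∈ G, (∀ k : K, v ≠ k • x) ∧
      ∀ y ∈ P, ∃ k : K, (y : V ≃ₗ[K] V) v - v = k • x := by
  haveI : Finite V := Module.finite_of_finite K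
  obtain ⟨L, hL⟩ : ∃ L, L = Submodule.span K {x} := ⟨_, rfl⟩
  have hmL : ∀ v, v ∈ L ↔ ∃ k : K, k • x = v := fun v => by
    rw [hL, Submodule.mem_span_singleton]
  have hst : ∀ y : P, L ≤ L.comap
      (((y : X) : V ≃ₗ[K] V) : V →ₗ[K] V) := by
    intro y v hv
    obtain ⟨k, rfl⟩ := (hmL v).mp hv
    rw [Submodule.mem_comap]
    refine (hmL _).mpr ⟨k, ?_⟩
    change k • x = ((y : X) : V ≃ₗ[K] V) (k • x)
    rw [map_smul, hx y y.2]
  let M : Submodule K (V ⧸ L) := G.map L.mkQ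
  haveI : Finite (V ⧸ L) := Finite.of_surjective _ (Submodule.Quotient.mk_surjective L)
  haveI : Finite M := inferInstance
  have hMst : ∀ (y : P) (m : V ⧸ L), m ∈ M → L.mapQ L _ (hst y) m ∈ M := by
    rintro y _ ⟨v, hv, rfl⟩
    exact ⟨((y : X) : V ≃ₗ[K] V) v, hG y y.2 v hv, rfl⟩
  have hM0 : M ≠ ⊥ := by
    intro h0
    have h1 : L.mkQ v₀ ∈ M := ⟨v₀, hv₀, rfl⟩
    rw [h0, Submodule.mem_bot] at h1
    have h3 : v₀ ∈ L := (Submodule.Quotient.mk_eq_zero L).mp h1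
    obtain ⟨k, hk⟩ := (hmL _).mp h3
    exact hv₀x k hk.symm
  obtain ⟨m, hm0, hm⟩ := Bt.exists_fixed_gen hP
    (fun (y : P) (m : M) => (⟨L.mapQ L _ (hst y) m, hMst y m m.2⟩ : M))
    (fun m => by
      apply Subtype.ext
      obtain ⟨v, hv⟩ := Submodule.Quotient.mk_surjective L (m : V ⧸ L)
      change L.mapQ L _ (hst 1) (m : V ⧸ L) = m
      rw [← hv, Submodule.mapQ_apply]
      rfl)
    (fun y z m => by
      apply Subtype.ext
      obtain ⟨v, hv⟩ := Submodule.Quotient.mk_surjective L (m : V ⧸ L)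
      change L.mapQ L _ (hst (y * z)) (m : V ⧸ L) = L.mapQ L _ (hst y) (L.mapQ L _ (hst z) m)
      rw [← hv, Submodule.mapQ_apply, Submodule.mapQ_apply, Submodule.mapQ_apply]
      rfl)
    (by
      rw [Module.natCard_eq_pow_finrank (K := K)]
      refine dvd_pow Bt.dvd_card_K ?_
      intro h0
      exact hM0 (Submodule.finrank_eq_zero.mp h0)) (x₀ := (0 : M))
    (fun y => Subtype.ext (map_zero _))
  obtain ⟨v, hv, hvm⟩ := m.2
  refine ⟨v, hv, ?_, ?_⟩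
  · intro k hk
    apply hm0
    apply Subtype.ext
    rw [← hvm]
    exact (Submodule.Quotient.mk_eq_zero L).mpr ((hmL _).mpr ⟨k, hk.symm⟩)
  · intro y hy
    have h1 := congrArg Subtype.val (hm ⟨y, hy⟩)
    change L.mapQ L _ (hst ⟨y, hy⟩) (m : V ⧸ L) = m at h1
    rw [← hvm] at h1
    change L.mapQ L _ (hst ⟨y, hy⟩) (Submodule.Quotient.mk v) = Submodule.Quotient.mk v at h1
    rw [Submodule.mapQ_apply] at h1
    obtain ⟨k, hk⟩ := (hmL _).mp ((Submodule.Quotient.eq L).mp h1)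
    exact ⟨k, hk.symm⟩

/-- combinations -/
theorem exists_comb {x v : V} (hx : Q x ≠ 0) (hxv : B v x = 0) : ∃ r : K, Q (v + r • x) = 0 := by
  obtain ⟨r, hr⟩ := exists_sqrt c.qd.two (Q v * (Q x)⁻¹)
  refine ⟨r, ?_⟩
  rw [c.qd.add, c.qd.sm, hr, map_smul, hxv, smul_zero, add_zero, inv_mul_cancel_right₀ hx,
    c.qd.addK]

omit [Finite K] [CharP K 2] in
theorem eq_one_of_line {y : X} {x : V} (hy : ∀ v, ∃ k : K, (y : V ≃ₗ[K] V) v - v = k • x) :
    y = 1 := by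
  have h1 := ((c.mem y).mp y.2).2
  have h3 : LinearMap.range (((y : V ≃ₗ[K] V) : V →ₗ[K] V) - 1) ≤ Submodule.span K {x} := by
    rintro _ ⟨v, rfl⟩
    obtain ⟨k, hk⟩ := hy v
    rw [Submodule.mem_span_singleton]
    exact ⟨k, hk.symm⟩
  have h4 : finrank K (LinearMap.range (((y : V ≃ₗ[K] V) : V →ₗ[K] V) - 1)) ≤ 1 :=
    (Submodule.finrank_mono h3).trans (finrank_span_le_card ({x} : Set V) |>.trans (by simp))
  have h5 : finrank K (LinearMap.range (((y : V ≃ₗ[K] V) : V →ₗ[K] V) - 1)) = 0 := by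
    unfold ER at h1
    rcases h1 with ⟨r, hr⟩
    omega
  have h6 := Submodule.finrank_eq_zero.mp h5
  apply ext_X
  intro v
  have h7 : (((y : V ≃ₗ[K] V) : V →ₗ[K] V) - 1) v ∈
      LinearMap.range (((y : V ≃ₗ[K] V) : V →ₗ[K] V) - 1) := ⟨v, rfl⟩
  rw [h6, Submodule.mem_bot] at h7
  have h8 : (y : V ≃ₗ[K] V) v - v = 0 := h7
  exact sub_eq_zero.mp h8

/-- **Invariant singular subspaces.** -/
theorem exists_inv (hP : IsPGroup 2 P) (hne : P ≠ ⊥) :
    ∃ U : Submodule K V, (∃ u ∈ U, u ≠ 0) ∧ (∀ x ∈ U, Q x = 0) ∧ Inv P U := by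
  have hq := c.qd
  have hPN : ∀ y ∈ P, y ∈ normalizer (P : Set X) := fun y hy => le_normalizer hy
  have hFtop : Fx P ≠ ⊤ := by
    intro h0
    obtain ⟨t, ht1⟩ := P.ne_bot_iff_exists_ne_one.mp hne
    apply ht1
    apply Subtype.ext
    apply ext_X
    intro x
    have h3 : x ∈ Fx P := by rw [h0]; exact Submodule.mem_top
    exact h3 t t.2
  have hGbot : B.orthogonal (Fx P) ≠ ⊥ := by
    intro h0
    apply hFtop
    rw [← LinearMap.BilinForm.orthogonal_orthogonal (nondeg hq.Sm) (isRefl hq.Sm) (Fx P), h0,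
      LinearMap.BilinForm.orthogonal_bot]
  obtain ⟨x, hxG, hx0, hxF⟩ := exists_fixed c hP hGbot (fun y hy v hv =>
    (inv_Fx (P := P)).perp c y (hPN y hy) v hv)
  obtain ⟨U, hU⟩ : ∃ U : Submodule K V, U = Fx P ⊓ B.orthogonal (Fx P) := ⟨_, rfl⟩
  have hxU : x ∈ U := by rw [hU]; exact ⟨hxF, hxG⟩
  have hUU : ∀ x ∈ U, ∀ y ∈ U, B x y = 0 := by
    intro x hx y hy
    rw [hU] at hx hy
    exact hy.2 x hx.1
  have hUi : Inv P U := by
    rw [hU]
    exact inv_Fx.inf (inv_Fx.perp c)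
  by_cases hS : ∃ u ∈ Sg hq U hUU, u ≠ 0
  · exact ⟨Sg hq U hUU, hS, fun x hx => hx.2, inv_Sg c hUi⟩
  push Not at hS
  have hQx : Q x ≠ 0 := fun h0 => hx0 (hS x ⟨hxU, h0⟩)
  have hline : ∀ v ∈ U, ∃ k : K, v = k • x := by
    intro v hv
    obtain ⟨r, hr⟩ := exists_comb c hQx (hUU v hv x hxU)
    have h1 := hS _ ⟨U.add_mem hv (U.smul_mem r hxU), hr⟩
    exact ⟨-r, by rw [neg_smul]; exact eq_neg_of_add_eq_zero_left h1⟩
  have hNx : ∀ g : X, g ∈ normalizer (P : Set X) → (g : V ≃ₗ[K] V) x = x := by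
    intro g hg
    obtain ⟨k, hk⟩ := hline _ (hUi g hg x hxU)
    have h1 := qf c g x
    rw [hk, hq.sm] at h1
    have h3 : k * k = 1 := mul_right_cancel₀ hQx (by rw [h1, one_mul])
    have h4 : k = 1 := by
      have h5 : (k - 1) * (k - 1) = 0 := by linear_combination h3 + (1 - k) * hq.two
      exact sub_eq_zero.mp (mul_self_eq_zero.mp h5)
    rw [hk, h4, one_smul]
  -- the second space
  let F₁ : Submodule K V :=
    { carrier := {v | B x v = 0 ∧ ∀ y ∈ P, ∃ k : K, (y : V ≃ₗ[K] V) v - v = k • x}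
      zero_mem' := ⟨map_zero _, fun y _ => ⟨0, by rw [map_zero, sub_zero, zero_smul]⟩⟩
      add_mem' := by
        rintro v w ⟨h1, h2⟩ ⟨h3, h4⟩
        refine ⟨by rw [map_add, h1, h3, add_zero], fun y hy => ?_⟩
        obtain ⟨k, hk⟩ := h2 y hy
        obtain ⟨l, hl⟩ := h4 y hy
        refine ⟨k + l, ?_⟩
        rw [map_add, add_smul, ← hk, ← hl]
        abel
      smul_mem' := by
        rintro a v ⟨h1, h2⟩
        refine ⟨by rw [map_smul, h1, smul_zero], fun y hy => ?_⟩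
        obtain ⟨k, hk⟩ := h2 y hy
        refine ⟨a * k, ?_⟩
        rw [map_smul, ← smul_sub, hk, smul_smul] }
  have hF₁i : Inv P F₁ := by
    rintro g hg v ⟨h1, h2⟩
    refine ⟨?_, fun y hy => ?_⟩
    · have h3 := iso c g x v
      rw [hNx g hg] at h3
      rw [h3, h1]
    · obtain ⟨k, hk⟩ := h2 _ (norm_conj hg hy)
      refine ⟨k, ?_⟩
      rw [conj_apply', ← map_sub, hk, map_smul, hNx g hg]
  have hxF₁ : x ∈ F₁ := ⟨hq.alt x, fun y hy => ⟨0, by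
    rw [hNx y (hPN y hy), sub_self, zero_smul]⟩⟩
  have hxG₁ : x ∈ B.orthogonal F₁ := by
    intro v hv
    rw [hq.symm x v]
    exact hv.1
  obtain ⟨U₁, hU₁⟩ : ∃ U : Submodule K V, U = F₁ ⊓ B.orthogonal F₁ := ⟨_, rfl⟩
  have hUU₁ : ∀ x ∈ U₁, ∀ y ∈ U₁, B x y = 0 := by
    intro x hx y hy
    rw [hU₁] at hx hy
    exact hy.2 x hx.1
  have hUi₁ : Inv P U₁ := by
    rw [hU₁]
    exact hF₁i.inf (hF₁i.perp c)
  have hxU₁ : x ∈ U₁ := by rw [hU₁]; exact ⟨hxF₁, hxG₁⟩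
  obtain ⟨v, hv, hvx⟩ : ∃ v ∈ U₁, ∀ k : K, v ≠ k • x := by
    by_cases hG₁ : ∃ v₀ ∈ B.orthogonal F₁, ∀ k : K, v₀ ≠ k • x
    · obtain ⟨v₀, hv₀, hv₀x⟩ := hG₁
      obtain ⟨v, hv, hvx, hvP⟩ := exists_fixed_mod c hP hxF (fun y hy v hv =>
        hF₁i.perp c y (hPN y hy) v hv) hv₀ hv₀x
      refine ⟨v, ?_, hvx⟩
      rw [hU₁]
      exact ⟨⟨hv x hxF₁, hvP⟩, hv⟩
    · exfalso
      push Not at hG₁
      have h1 : ∀ v, B x v = 0 → v ∈ F₁ := by
        intro v hv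
        rw [← LinearMap.BilinForm.orthogonal_orthogonal (nondeg hq.Sm) (isRefl hq.Sm) F₁]
        intro w hw
        obtain ⟨k, rfl⟩ := hG₁ w hw
        rw [map_smul, LinearMap.smul_apply, hv, smul_zero]
      apply hne
      rw [eq_bot_iff]
      intro y hy
      rw [mem_bot]
      have h3 : ∀ v, B x v = 0 → (y : V ≃ₗ[K] V) v = v := by
        intro v hv
        obtain ⟨k, hk⟩ := (h1 v hv).2 y hy
        have h4 : (y : V ≃ₗ[K] V) v = v + k • x := by rw [← hk]; abel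
        have h5 := qf c y v
        rw [h4, hq.add, hq.sm, map_smul, hq.symm x v, hv, smul_zero, add_zero] at h5
        have h6 : k * k * Q x = 0 := add_eq_left.mp h5
        have h7 : k = 0 := mul_self_eq_zero.mp ((mul_eq_zero.mp h6).resolve_right hQx)
        rw [h4, h7, zero_smul, add_zero]
      refine eq_one_of_line c (x := x) fun v => ?_
      refine exists_smul_of_perp hq.Sm hx0 fun z hz => ?_
      have h4 : B x z = 0 := by rw [hq.symm z x, hz]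
      rw [map_sub]
      nth_rewrite 1 [← h3 z h4]
      rw [iso c, sub_self]
  refine ⟨Sg hq U₁ hUU₁, ?_, fun x hx => hx.2, inv_Sg c hUi₁⟩
  obtain ⟨r, hr⟩ := exists_comb c hQx (hUU₁ v hv x hxU₁)
  refine ⟨v + r • x, ⟨U₁.add_mem hv (U₁.smul_mem r hxU₁), hr⟩, fun h0 => ?_⟩
  apply hvx (-r)
  rw [neg_smul]
  exact eq_neg_of_add_eq_zero_left h0

end Inv

end Vale.Agent.P180.R2.H589.Oe
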