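import Vale.Agent.P180.R2.H589.Oe.Bas

/-!
P180: automorphisms of `Ω(Q)`, characteristic two: the radicals of the stabilisers of the singular
points.
-/

set_option linter.all false

namespace Vale.Agent.P180.R2.H589.Oe

open Subgroup Module
open LinearMap (BilinForm)
open Vale.Agent.P180.R2.H589.Sch
open Vale.Agent.P180.R2.H589.Sp (finite_gl)

section Def

variable {K V : Type*} [Field K] [AddCommGroup V] [Module K V]

/-- the hypotheses on the group -/
structure Ctx (Q : V → K) (B : BilinForm K V) (X : Subgroup (V ≃ₗ[K] V)) : Prop where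
  qd : Qd Q B
  mem : ∀ g, g ∈ X ↔ g ∈ OG Q ∧ ER g

/-- the elements of the radicals -/
noncomputable def rX (Q : V → K) (B : BilinForm K V) (X : Subgroup (V ≃ₗ[K] V)) (u y : V) : X := by
  classical exact if h : ∃ g : X, ∀ x, (g : V ≃ₗ[K] V) x = rl Q B u y x then h.choose else 1

end Def

section Basic

variable {K V : Type*} [Field K] [AddCommGroup V] [Module K V]
  {Q : V → K} {B : BilinForm K V} {X : Subgroup (V ≃ₗ[K] V)} (c : Ctx Q B X)

include c

omit c in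
theorem ext_X {x y : X} (h : ∀ v, (x : V ≃ₗ[K] V) v = (y : V ≃ₗ[K] V) v) : x = y :=
  Subtype.ext (LinearEquiv.ext h)

theorem rX_apply {u y : V} (hu : Q u = 0) (hy : B u y = 0) (x : V) :
    (rX Q B X u y : V ≃ₗ[K] V) x = rl Q B u y x := by
  classical
  obtain ⟨g, hg, hpg, -, hgx⟩ := exists_rl c.qd hu hy
  have h : ∃ g : X, ∀ x, (g : V ≃ₗ[K] V) x = rl Q B u y x :=
    ⟨⟨g, (c.mem g).mpr ⟨hg, hpg⟩⟩, hgx⟩
  have h1 : rX Q B X u y = h.choose := dif_pos h
  rw [h1]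
  exact h.choose_spec x

theorem rX_mul {u y y' : V} (hu : Q u = 0) (hy : B u y = 0) (hy' : B u y' = 0) :
    rX Q B X u y * rX Q B X u y' = rX Q B X u (y + y') := by
  apply ext_X
  intro x
  rw [Subgroup.coe_mul, LinearEquiv.mul_apply, rX_apply c hu hy, rX_apply c hu hy',
    rX_apply c hu (by rw [map_add, hy, hy', add_zero]), rl_add c.qd hu hy hy']

theorem rX_zero {u : V} (hu : Q u = 0) : rX Q B X u 0 = 1 := by
  apply ext_X
  intro x
  rw [rX_apply c hu (map_zero _), rl_zero c.qd]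
  rfl

theorem rX_pel {u y : V} (hu : Q u = 0) (hy : B u y = 0) : Pel 2 (rX Q B X u y) := by
  refine ⟨1, ?_⟩
  rw [pow_one, pow_two, rX_mul c hu hy hy, c.qd.addV, rX_zero c hu]

theorem rX_inv {u y : V} (hu : Q u = 0) (hy : B u y = 0) :
    (rX Q B X u y)⁻¹ = rX Q B X u y := by
  symm
  apply eq_inv_of_mul_eq_one_left
  rw [rX_mul c hu hy hy, c.qd.addV, rX_zero c hu]

theorem qf (g : X) (x : V) : Q ((g : V ≃ₗ[K] V) x) = Q x := ((c.mem g).mp g.2).1 x

theorem iso (g : X) (x y : V) : B ((g : V ≃ₗ[K] V) x) ((g : V ≃ₗ[K] V) y) = B x y :=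
  OG_iso c.qd ((c.mem g).mp g.2).1 x y

theorem rX_conj (g : X) {u y : V} (hu : Q u = 0) (hy : B u y = 0) :
    g * rX Q B X u y * g⁻¹ = rX Q B X ((g : V ≃ₗ[K] V) u) ((g : V ≃ₗ[K] V) y) := by
  rw [mul_inv_eq_iff_eq_mul]
  apply ext_X
  intro x
  rw [Subgroup.coe_mul, Subgroup.coe_mul, LinearEquiv.mul_apply, LinearEquiv.mul_apply,
    rX_apply c hu hy, rX_apply c (by rw [qf c, hu]) (by rw [iso c, hy]), rl_apply, rl_apply,
    iso c, iso c, qf c]
  simp only [map_add, map_sub, map_smul]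

theorem rX_inj {u y y' : V} (hu0 : u ≠ 0) (hu : Q u = 0) (hy : B u y = 0) (hy' : B u y' = 0)
    (h : rX Q B X u y = rX Q B X u y') : ∃ k : K, y = y' + k • u := by
  obtain ⟨x, hx⟩ := c.qd.Sm.exists_one hu0
  have h1 := congrArg (fun g : X => (g : V ≃ₗ[K] V) x) h
  simp only [rX_apply c hu hy, rX_apply c hu hy', rl_apply] at h1
  rw [c.qd.symm u x, hx, one_smul, one_smul] at h1
  have h3 : y = (x + y - (B x y + Q y * 1) • u) - x + (B x y + Q y * 1) • u := by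
    abel
  refine ⟨(B x y + Q y * 1) - (B x y' + Q y' * 1), ?_⟩
  calc y = (x + y - (B x y + Q y * 1) • u) - x + (B x y + Q y * 1) • u := h3
    _ = (x + y' - (B x y' + Q y' * 1) • u) - x + (B x y + Q y * 1) • u := by
      rw [h1]
    _ = _ := by module

theorem rX_shift {u y : V} (hu : Q u = 0) (hy : B u y = 0) (k : K) :
    rX Q B X u (y + k • u) = rX Q B X u y := by
  have h1 : B u (y + k • u) = 0 := by rw [map_add, map_smul, c.qd.alt, hy, smul_zero, add_zero]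
  have h3 : Q (y + k • u) = Q y := by
    rw [c.qd.add, c.qd.sm, hu, map_smul, c.qd.symm u y, hy, smul_zero, mul_zero, add_zero,
      add_zero]
  apply ext_X
  intro x
  rw [rX_apply c hu h1, rX_apply c hu hy, rl_apply, rl_apply, h3, map_add, map_smul, smul_eq_mul]
  module

theorem rX_smul {u y : V} (hu : Q u = 0) (hy : B u y = 0) (k : K) :
    rX Q B X (k • u) y = rX Q B X u (k • y) := by
  have h1 : Q (k • u) = 0 := by rw [c.qd.sm, hu, mul_zero]
  have h3 : B (k • u) y = 0 := by rw [map_smul, LinearMap.smul_apply, hy, smul_zero]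
  have h4 : B u (k • y) = 0 := by rw [map_smul, hy, smul_zero]
  apply ext_X
  intro x
  rw [rX_apply c h1 h3, rX_apply c hu h4, rl_apply, rl_apply, c.qd.sm]
  simp only [map_smul, smul_eq_mul]
  module

theorem rX_swap {u w : V} (hu : Q u = 0) (hw : Q w = 0) (h : B u w = 0) :
    rX Q B X u w = rX Q B X w u := by
  have h1 : B w u = 0 := by rw [c.qd.symm u w, h]
  apply ext_X
  intro x
  rw [rX_apply c hu h, rX_apply c hw h1, rl_apply, rl_apply, hu, hw]
  have e1 : B x u • w = -(B x u • w) := by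
    have := c.qd.addV (B x u • w)
    exact eq_neg_of_add_eq_zero_left this
  have e2 : (B x w + 0 * B x u) • u = -(B x w • u) := by
    have := c.qd.addV (B x w • u)
    rw [zero_mul, add_zero]
    exact eq_neg_of_add_eq_zero_left this
  rw [e1, e2]
  module

/-- the intersection of two radicals -/
theorem rX_eq {u y w z : V} (hu0 : u ≠ 0) (hw0 : w ≠ 0) (hu : Q u = 0) (hw : Q w = 0)
    (hy : B u y = 0) (hz : B w z = 0) (huw : ∀ k : K, w ≠ k • u)
    (h : rX Q B X u y = rX Q B X w z) : ∃ a b : K, y = a • u + b • w ∧ b * B u w = 0 ∧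
      Q y = 0 := by
  obtain ⟨a, b, hab⟩ := rl_eq c.qd hu0 huw hw0 (y := y) (z := z) (fun x => by
    rw [← rX_apply c hu hy, h, rX_apply c hw hz])
  have h1 : b * B u w = 0 := by
    rw [hab, map_add, map_smul, map_smul, c.qd.alt, smul_zero, zero_add, smul_eq_mul] at hy
    exact hy
  refine ⟨a, b, hab, h1, ?_⟩
  rw [hab, c.qd.add, c.qd.sm, c.qd.sm, hu, hw, map_smul, map_smul, LinearMap.smul_apply,
    smul_eq_mul, smul_eq_mul]
  linear_combination a * h1

variable [Finite K] [Module.Finite K V]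

/-- **Transitivity on the singular points.** -/
theorem trans (hd : 3 ≤ finrank K V) {u w : V} (hu0 : u ≠ 0) (hw0 : w ≠ 0) (hu : Q u = 0)
    (hw : Q w = 0) : ∃ (g : X) (k : K), k ≠ 0 ∧ (g : V ≃ₗ[K] V) u = k • w := by
  obtain ⟨z₀, hz₀, h1, h3⟩ := exists_sing_ne c.qd hd hu0 hw0 hu hw
  obtain ⟨z, hz⟩ : ∃ z, z = (B u z₀)⁻¹ • z₀ := ⟨_, rfl⟩
  obtain ⟨k, hk⟩ : ∃ k, k = (B w z)⁻¹ := ⟨_, rfl⟩
  have e1 : Q z = 0 := by rw [hz, c.qd.sm, hz₀, mul_zero]
  have e2 : B u z = 1 := by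
    rw [hz, map_smul, smul_eq_mul, inv_mul_cancel₀ h1]
  have e3 : B w z ≠ 0 := by
    rw [hz, map_smul, smul_eq_mul]
    exact mul_ne_zero (inv_ne_zero h1) h3
  have e4 : B (k • w) z = 1 := by
    rw [map_smul, LinearMap.smul_apply, hk, smul_eq_mul, inv_mul_cancel₀ e3]
  have e5 : Q (k • w) = 0 := by rw [c.qd.sm, hw, mul_zero]
  have e6 : B z (k • w - u) = 0 := by
    rw [map_sub, c.qd.symm (k • w) z, c.qd.symm u z, e4, e2, sub_self]
  refine ⟨rX Q B X z (k • w - u), k, by rw [hk]; exact inv_ne_zero e3, ?_⟩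
  rw [rX_apply c e1 e6, rl_apply, e2, one_smul, mul_one]
  have e7 : B u (k • w - u) + Q (k • w - u) = 0 := by
    rw [c.qd.sub, e5, hu, map_sub, c.qd.alt, c.qd.symm (k • w) u]
    ring
  rw [e7, zero_smul, sub_zero]
  abel

end Basic

section T

variable {K V : Type*} [Field K] [AddCommGroup V] [Module K V]
  {Q : V → K} {B : BilinForm K V} {X : Subgroup (V ≃ₗ[K] V)} (c : Ctx Q B X)

/-- the radicals -/
noncomputable def RT (Q : V → K) (B : BilinForm K V) (X : Subgroup (V ≃ₗ[K] V)) (u : V) :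
    Subgroup X := Subgroup.closure {t | ∃ y, B u y = 0 ∧ t = rX Q B X u y}

include c in
theorem mem_RT {u : V} (hu : Q u = 0) {t : X} :
    t ∈ RT Q B X u ↔ ∃ y, B u y = 0 ∧ t = rX Q B X u y := by
  constructor
  · intro ht
    refine Subgroup.closure_induction (fun x hx => hx) ?_ ?_ ?_ ht
    · exact ⟨0, map_zero _, by rw [rX_zero c hu]⟩
    · rintro _ _ - - ⟨y, hy, rfl⟩ ⟨y', hy', rfl⟩
      exact ⟨y + y', by rw [map_add, hy, hy', add_zero], by rw [rX_mul c hu hy hy']⟩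
    · rintro _ - ⟨y, hy, rfl⟩
      exact ⟨y, hy, by rw [rX_inv c hu hy]⟩
  · exact fun h => Subgroup.subset_closure h

theorem rX_mem_RT {u y : V} (hy : B u y = 0) : rX Q B X u y ∈ RT Q B X u :=
  Subgroup.subset_closure ⟨y, hy, rfl⟩

include c

theorem RT_comm {u : V} (hu : Q u = 0) {s t : X} (hs : s ∈ RT Q B X u) (ht : t ∈ RT Q B X u) :
    s * t = t * s := by
  obtain ⟨y, hy, rfl⟩ := (mem_RT c hu).mp hs
  obtain ⟨z, hz, rfl⟩ := (mem_RT c hu).mp ht
  rw [rX_mul c hu hy hz, rX_mul c hu hz hy, add_comm]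

theorem isPGroup_RT {u : V} (hu : Q u = 0) : IsPGroup 2 (RT Q B X u) := by
  rw [Bt.isPGroup_iff]
  intro t ht
  obtain ⟨y, hy, rfl⟩ := (mem_RT c hu).mp ht
  exact rX_pel c hu hy

theorem RT_smul {k : K} (hk : k ≠ 0) {u : V} (hu : Q u = 0) :
    RT Q B X (k • u) = RT Q B X u := by
  have hu' : Q (k • u) = 0 := by rw [c.qd.sm, hu, mul_zero]
  ext t
  rw [mem_RT c hu, mem_RT c hu']
  constructor
  · rintro ⟨y, hy, rfl⟩
    have hy' : B u y = 0 := by
      rw [map_smul, LinearMap.smul_apply, smul_eq_mul] at hy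
      exact (mul_eq_zero.mp hy).resolve_left hk
    exact ⟨k • y, by rw [map_smul, hy', smul_zero], by rw [rX_smul c hu hy']⟩
  · rintro ⟨y, hy, rfl⟩
    have hy' : B u (k⁻¹ • y) = 0 := by rw [map_smul, hy, smul_zero]
    refine ⟨k⁻¹ • y, by rw [map_smul, map_smul, LinearMap.smul_apply, hy, smul_zero, smul_zero],
      ?_⟩
    rw [rX_smul c hu hy', smul_smul, mul_inv_cancel₀ hk, one_smul]

theorem RT_conj (g : X) {u : V} (hu : Q u = 0) {t : X} (ht : t ∈ RT Q B X u) :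
    g * t * g⁻¹ ∈ RT Q B X ((g : V ≃ₗ[K] V) u) := by
  obtain ⟨y, hy, rfl⟩ := (mem_RT c hu).mp ht
  rw [rX_conj c g hu hy]
  exact rX_mem_RT (by rw [iso c, hy])

theorem RT_conj_iff' (g : X) {u : V} (hu : Q u = 0) {t : X} :
    g⁻¹ * t * g ∈ RT Q B X u ↔ t ∈ RT Q B X ((g : V ≃ₗ[K] V) u) := by
  constructor
  · intro h
    have h1 := RT_conj c g hu h
    have h3 : g * (g⁻¹ * t * g) * g⁻¹ = t := by group
    rwa [h3] at h1
  · intro h
    have h1 := RT_conj c g⁻¹ (by rw [qf c, hu]) h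
    have h3 : ((g⁻¹ : X) : V ≃ₗ[K] V) ((g : V ≃ₗ[K] V) u) = u :=
      (g : V ≃ₗ[K] V).symm_apply_apply u
    rwa [h3, inv_inv] at h1

/-- the intersection of two radicals -/
theorem RT_inf {u w : V} (hu0 : u ≠ 0) (hw0 : w ≠ 0) (hu : Q u = 0) (hw : Q w = 0)
    (huw : ∀ k : K, w ≠ k • u) :
    (∃ t ∈ RT Q B X u, t ∈ RT Q B X w ∧ t ≠ 1) ↔ B u w = 0 := by
  constructor
  · rintro ⟨t, ht, ht', ht1⟩
    obtain ⟨y, hy, hty⟩ := (mem_RT c hu).mp ht
    obtain ⟨z, hz, htz⟩ := (mem_RT c hw).mp ht'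
    obtain ⟨a, b, hab, hb, -⟩ := rX_eq c hu0 hw0 hu hw hy hz huw (by rw [← hty, htz])
    by_contra hne
    have hb0 : b = 0 := (mul_eq_zero.mp hb).resolve_right hne
    rw [hb0, zero_smul, add_zero] at hab
    apply ht1
    rw [hty, hab]
    have h3 := rX_shift c (X := X) hu (map_zero _ : B u 0 = 0) a
    rw [zero_add] at h3
    rw [h3, rX_zero c hu]
  · intro h0
    refine ⟨rX Q B X u w, rX_mem_RT h0, ?_, ?_⟩
    · rw [rX_swap c hu hw h0]
      exact rX_mem_RT (by rw [c.qd.symm u w, h0])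
    · intro h1
      rw [← rX_zero c hu] at h1
      obtain ⟨k, hk⟩ := rX_inj c hu0 hu h0 (map_zero _) h1
      rw [zero_add] at hk
      exact huw k hk

theorem RT_eq [Module.Finite K V] (hd : 3 ≤ finrank K V) {u w : V} (hu0 : u ≠ 0) (hw0 : w ≠ 0)
    (hu : Q u = 0) (hw : Q w = 0) (hle : RT Q B X u ≤ RT Q B X w) : ∃ k : K, w = k • u := by
  by_contra hcon
  push Not at hcon
  obtain ⟨y, hy, hyy⟩ := exists_nonsing c.qd hd hu0 hu
  obtain ⟨z, hz, hyz⟩ := (mem_RT c hw).mp (hle (rX_mem_RT hy))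
  obtain ⟨a, b, -, -, h1⟩ := rX_eq c hu0 hw0 hu hw hy hz hcon hyz
  exact hyy h1

theorem line_of_norm [Module.Finite K V] (hd : 3 ≤ finrank K V) {g : X} {u : V} (hu0 : u ≠ 0)
    (hu : Q u = 0) (hn : ∀ t ∈ RT Q B X u, g * t * g⁻¹ ∈ RT Q B X u) :
    ∃ k : K, k ≠ 0 ∧ (g : V ≃ₗ[K] V) u = k • u := by
  have hgu : Q ((g : V ≃ₗ[K] V) u) = 0 := by rw [qf c, hu]
  have hgu0 : (g : V ≃ₗ[K] V) u ≠ 0 := fun h0 => hu0 ((g : V ≃ₗ[K] V).map_eq_zero_iff.mp h0)
  obtain ⟨k, hk⟩ := RT_eq c hd hgu0 hu0 hgu hu (fun t ht => by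
    have h1 := hn _ ((RT_conj_iff' c g hu).mpr ht)
    have h3 : g * (g⁻¹ * t * g) * g⁻¹ = t := by group
    rwa [h3] at h1)
  have hk0 : k ≠ 0 := by
    rintro rfl
    rw [zero_smul] at hk
    exact hu0 hk
  refine ⟨k⁻¹, inv_ne_zero hk0, ?_⟩
  nth_rewrite 2 [hk]
  rw [smul_smul, inv_mul_cancel₀ hk0, one_smul]

/-- commuting elements -/
theorem conj_eq {g r : X} (h : g * r = r * g) : g * r * g⁻¹ = r := by
  rw [h, mul_inv_cancel_right]

/-- small centralisers -/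
theorem card_RT [Finite K] [Module.Finite K V] {u : V} (hu0 : u ≠ 0) (hu : Q u = 0) {g : X}
    (hg : ∀ k : K, (g : V ≃ₗ[K] V) u ≠ k • u) :
    Nat.card (RT Q B X u ⊓ centralizer {g} : Subgroup X) ≤ Nat.card K := by
  have hgu0 : (g : V ≃ₗ[K] V) u ≠ 0 := fun h0 => hu0 ((g : V ≃ₗ[K] V).map_eq_zero_iff.mp h0)
  have hgu : Q ((g : V ≃ₗ[K] V) u) = 0 := by rw [qf c, hu]
  have key : ∀ t : (RT Q B X u ⊓ centralizer {g} : Subgroup X), ∃ b : K,
      (t : X) = rX Q B X u (b • (g : V ≃ₗ[K] V) u) := by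
    intro t
    obtain ⟨y, hy, hty⟩ := (mem_RT c hu).mp t.2.1
    have h1 := mem_centralizer_iff.mp t.2.2 _ rfl
    rw [hty] at h1
    have h3 := conj_eq c h1
    rw [rX_conj c g hu hy] at h3
    obtain ⟨a, b, hab, hb, -⟩ := rX_eq c hu0 hgu0 hu hgu hy (by rw [iso c, hy]) hg h3.symm
    refine ⟨b, ?_⟩
    rw [hty, hab, add_comm, rX_shift c hu (by rw [map_smul, smul_eq_mul, hb])]
  choose b hb using key
  refine Nat.card_le_card_of_injective b ?_
  intro s t hst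
  apply Subtype.ext
  rw [hb, hb t, hst]

end T

end Vale.Agent.P180.R2.H589.Oe
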