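import Vale.Agent.P180.R2.H589.Oe.Cl2
import Vale.Agent.P180.R2.H589.Oa.Aut1

/-!
P180: automorphisms of `Ω(Q)`, characteristic two: the radical of the stabiliser of the first
point.
-/

set_option linter.all false

namespace Vale.Agent.P180.R2.H589.Oe

open Subgroup Module
open LinearMap (BilinForm)
open Vale.Agent.P180.R2.H589.Sch
open Vale.Agent.P180.R2.H589.Or (Sm hypo hypo_apply hypo_sm StO mem_StO lamF lamF_spec thd thd_zero
  blF blF_apply blF_one blF_mul snd_of form_of lamF_ne)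
open Vale.Agent.P180.R2.H589.Sp (oo oo_ne finite_gl SpG mem_SpG o')
open Vale.Agent.P180.R2.H589.Oa (Phi Phi.map mem_map_aut mem_norm_map)

section Vec

variable {K W : Type*} [Field K] [AddCommGroup W] [Module K W]

theorem o'_ne : o' K W ≠ 0 := fun h => one_ne_zero (congrArg (fun u : K × W × K => u.2.2) h)

theorem oo_orth (B : BilinForm K W) (v : K × W × K) : hypo B (oo K W) v = v.2.2 := by
  rw [hypo_apply]
  change (1 : K) * v.2.2 + 0 * v.1 + B 0 v.2.1 = v.2.2
  rw [map_zero, LinearMap.zero_apply]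
  ring

theorem o'_orth (B : BilinForm K W) (v : K × W × K) : hypo B (o' K W) v = v.1 := by
  rw [hypo_apply]
  change (0 : K) * v.2.2 + 1 * v.1 + B 0 v.2.1 = v.1
  rw [map_zero, LinearMap.zero_apply]
  ring

theorem oo_o'_ind (k : K) : o' K W ≠ k • oo K W := by
  intro h0
  have h1 := congrArg (fun u : K × W × K => u.2.2) h0
  change (1 : K) = k * 0 at h1
  rw [mul_zero] at h1
  exact one_ne_zero h1

end Vec

section Irr

variable {K W : Type*} [Field K] [Finite K] [AddCommGroup W] [Module K W] [Module.Finite K W]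
  {Q : W → K} {B : BilinForm K W}

/-- **Irreducibility.** -/
theorem irr (h : Qd Q B) (hμ : ∃ μ : K, μ ≠ 0 ∧ μ ^ 2 ≠ 1) (hd : 3 ≤ finrank K W)
    {E : Submodule K W}
    (hE : ∀ u y, Q u = 0 → B u y = 0 → ∀ x ∈ E, rl Q B u y x ∈ E) {x : W} (hx : x ∈ E)
    (hx0 : x ≠ 0) (w : W) : w ∈ E := by
  obtain ⟨e, he0, he⟩ := exists_sing h hd
  obtain ⟨f, hef, hf⟩ := h.exists_pair he0 he
  obtain ⟨μ, hμ0, hμ1⟩ := hμ
  have key : ∀ x ∈ E, ∀ u : W, u ≠ 0 → Q u = 0 → B x u ≠ 0 → u ∈ E := by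
    intro x hx u hu0 hu hxu
    obtain ⟨y, hy, hyy⟩ := exists_nonsing h hd hu0 hu
    have hy' : B u (μ • y) = 0 := by rw [map_smul, hy, smul_zero]
    have h1 := hE u y hu hy x hx
    have h3 := hE u (μ • y) hu hy' x hx
    have h4 : (rl Q B u (μ • y) x - x) - μ • (rl Q B u y x - x) =
        (-(μ * (μ - 1) * Q y * B x u)) • u := by
      rw [rl_apply, rl_apply, h.sm, map_smul, smul_eq_mul]
      module
    have h5 : (-(μ * (μ - 1) * Q y * B x u)) • u ∈ E := by
      rw [← h4]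
      exact E.sub_mem (E.sub_mem h3 hx) (E.smul_mem μ (E.sub_mem h1 hx))
    have h6 : -(μ * (μ - 1) * Q y * B x u) ≠ 0 := by
      refine neg_ne_zero.mpr (mul_ne_zero (mul_ne_zero (mul_ne_zero hμ0 ?_) hyy) hxu)
      intro h7
      apply hμ1
      rw [sub_eq_zero.mp h7, one_pow]
    have h7 := E.smul_mem (-(μ * (μ - 1) * Q y * B x u))⁻¹ h5
    rwa [smul_smul, inv_mul_cancel₀ h6, one_smul] at h7
  -- a singular vector
  obtain ⟨u, hu0, hu, hxu⟩ : ∃ u : W, u ≠ 0 ∧ Q u = 0 ∧ B x u ≠ 0 := by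
    by_contra hcon
    push Not at hcon
    apply hx0
    apply h.nd
    intro y
    have h1 := sum_sing h he hf hef (LinearMap.ker (B x)).toAddSubgroup (fun v hv => by
      by_cases hv0 : v = 0
      · rw [hv0]; exact map_zero (B x)
      · exact hcon v hv0 hv) y
    exact h1
  have huE := key x hx u hu0 hu hxu
  refine sum_sing h he hf hef E.toAddSubgroup (fun v hv => ?_) w
  by_cases hv0 : v = 0
  · rw [hv0]; exact E.zero_mem
  obtain ⟨z, hz, huz, hvz⟩ := exists_sing_ne h hd hu0 hv0 hu hv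
  have hz0 : z ≠ 0 := by
    rintro rfl
    rw [map_zero] at huz
    exact huz rfl
  exact key z (key u huE z hz0 hz huz) v hv0 hv (by rw [h.symm v z]; exact hvz)

end Irr

section Oo

variable {K W : Type*} [Field K] [AddCommGroup W] [Module K W]
  {Q : W → K} {B : BilinForm K W}

/-- the hyperbolic extension of a quadratic form -/
def hyq (Q : W → K) (u : K × W × K) : K := u.1 * u.2.2 + Q u.2.1

theorem hyq_apply (Q : W → K) (u : K × W × K) : hyq Q u = u.1 * u.2.2 + Q u.2.1 := rfl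

theorem hyq_qd (h : Qd Q B) : Qd (hyq Q) (hypo B) := by
  refine ⟨fun x y => ?_, fun a x => ?_, (hypo_sm h.Sm).nd, h.two⟩
  · rw [hyq_apply, hyq_apply, hyq_apply, hypo_apply]
    change (x.1 + y.1) * (x.2.2 + y.2.2) + Q (x.2.1 + y.2.1) = _
    rw [h.add]
    ring
  · rw [hyq_apply, hyq_apply]
    change (a * x.1) * (a * x.2.2) + Q (a • x.2.1) = _
    rw [h.sm]
    ring

variable (h : Qd Q B) {X : Subgroup ((K × W × K) ≃ₗ[K] (K × W × K))}
  (c : Ctx (hyq Q) (hypo B) X)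

include h

theorem oo_sing : hyq Q (oo K W) = 0 := by
  rw [hyq_apply]
  change (1 : K) * 0 + Q 0 = 0
  rw [h.zero]
  ring

theorem o'_sing : hyq Q (o' K W) = 0 := by
  rw [hyq_apply]
  change (0 : K) * 1 + Q 0 = 0
  rw [h.zero]
  ring

omit h in
theorem oo_mid (B : BilinForm K W) (a : K) (y : W) : hypo B (oo K W) (a, y, 0) = 0 := by
  rw [oo_orth]

omit h in
theorem mid_sing (a : K) {y : W} (hy : Q y = 0) : hyq Q (a, y, (0 : K)) = 0 := by
  rw [hyq_apply]
  change a * 0 + Q y = 0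
  rw [hy]
  ring

/-- the elements of the radical -/
noncomputable def qX (Q : W → K) (B : BilinForm K W)
    (X : Subgroup ((K × W × K) ≃ₗ[K] (K × W × K))) (y : W) :
    X := rX (hyq Q) (hypo B) X (oo K W) ((0 : K), y, (0 : K))

include c

theorem qX_apply (y : W) (x : K × W × K) :
    ((qX Q B X y : X) : (K × W × K) ≃ₗ[K] (K × W × K)) x =
      (x.1 - B x.2.1 y - Q y * x.2.2, x.2.1 + x.2.2 • y, x.2.2) := by
  rw [qX, rX_apply c (oo_sing h) (oo_mid B 0 y), rl_apply, hyq_apply, hypo_apply, hypo_apply]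
  refine Prod.ext ?_ (Prod.ext ?_ ?_)
  · change x.1 + (x.1 * 0 + x.2.2 * 1 + B x.2.1 0) * 0 - ((x.1 * 0 + x.2.2 * 0 + B x.2.1 y) +
      ((0 : K) * 0 + Q y) * (x.1 * 0 + x.2.2 * 1 + B x.2.1 0)) * 1 =
      x.1 - B x.2.1 y - Q y * x.2.2
    rw [map_zero]
    ring
  · change x.2.1 + (x.1 * 0 + x.2.2 * 1 + B x.2.1 0) • y - (_ : K) • (0 : W) = x.2.1 + x.2.2 • y
    rw [map_zero, smul_zero, sub_zero]
    congr 2
    ring
  · change x.2.2 + (_ : K) * 0 - (_ : K) * 0 = x.2.2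
    ring

theorem qX_mul (y y' : W) : qX Q B X y * qX Q B X y' = qX Q B X (y + y') := by
  rw [qX, qX, rX_mul c (oo_sing h) (oo_mid B 0 y) (oo_mid B 0 y'), qX]
  congr 1
  refine Prod.ext (add_zero _) (Prod.ext rfl (add_zero _))

theorem qX_zero : qX Q B X 0 = 1 := rX_zero c (oo_sing h)

theorem qX_inj {y y' : W} (hh : qX Q B X y = qX Q B X y') : y = y' := by
  have h1 := congrArg (fun g : X => ((g : (K × W × K) ≃ₗ[K] (K × W × K)) (0, 0, 1)).2.1) hh
  simp only [qX_apply h c, zero_add, one_smul] at h1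
  exact h1

theorem qX_oo (y : W) :
    ((qX Q B X y : X) : (K × W × K) ≃ₗ[K] (K × W × K)) (oo K W) = oo K W := by
  rw [qX_apply h c]
  refine Prod.ext ?_ (Prod.ext ?_ rfl)
  · change (1 : K) - B 0 y - Q y * 0 = 1
    rw [map_zero, LinearMap.zero_apply]
    ring
  · change (0 : W) + (0 : K) • y = 0
    rw [zero_smul, zero_add]

theorem qX_o' (y : W) :
    ((qX Q B X y : X) : (K × W × K) ≃ₗ[K] (K × W × K)) (o' K W) = (-Q y, y, 1) := by
  rw [qX_apply h c]
  refine Prod.ext ?_ (Prod.ext ?_ rfl)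
  · change (0 : K) - B 0 y - Q y * 1 = _
    rw [map_zero, LinearMap.zero_apply]
    ring
  · change (0 : W) + (1 : K) • y = y
    rw [one_smul, zero_add]

theorem mem_RT_oo {t : X} : t ∈ RT (hyq Q) (hypo B) X (oo K W) ↔ ∃ y, t = qX Q B X y := by
  rw [mem_RT c (oo_sing h)]
  constructor
  · rintro ⟨y, hy, rfl⟩
    refine ⟨y.2.1, ?_⟩
    have h1 : y.2.2 = 0 := by rwa [oo_orth] at hy
    have h3 : y = ((0 : K), y.2.1, (0 : K)) + y.1 • oo K W := by
      refine Prod.ext ?_ (Prod.ext ?_ ?_)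
      · change y.1 = 0 + y.1 * 1
        ring
      · change y.2.1 = y.2.1 + y.1 • (0 : W)
        rw [smul_zero, add_zero]
      · change y.2.2 = 0 + y.1 * 0
        rw [h1]
        ring
    have h4 := rX_shift c (X := X) (oo_sing h) (oo_mid B 0 y.2.1) y.1
    rw [← h3] at h4
    rw [h4]
    rfl
  · rintro ⟨y, rfl⟩
    exact ⟨_, oo_mid B 0 y, rfl⟩

theorem mem_St {g : X} {k : K} (hk : (g : (K × W × K) ≃ₗ[K] (K × W × K)) (oo K W) =
    k • oo K W) : (g : (K × W × K) ≃ₗ[K] (K × W × K)) ∈ StO B :=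
  ⟨fun x y => iso c g x y, k, hk⟩

/-- elements which are trivial on the factors -/
theorem exists_qX {g : X} (h1 : (g : (K × W × K) ≃ₗ[K] (K × W × K)) (oo K W) = oo K W)
    (h3 : ∀ x, blF (g : (K × W × K) ≃ₗ[K] (K × W × K)) x = x) : ∃ y, g = qX Q B X y := by
  have hg : (g : (K × W × K) ≃ₗ[K] (K × W × K)) ∈ StO B := mem_St h c (k := 1) (by
    rw [h1, one_smul])
  obtain ⟨y, hy⟩ : ∃ y, y = ((g : (K × W × K) ≃ₗ[K] (K × W × K)) (0, 0, 1)).2.1 := ⟨_, rfl⟩
  obtain ⟨a, ha⟩ : ∃ a, a = ((g : (K × W × K) ≃ₗ[K] (K × W × K)) (0, 0, 1)).1 := ⟨_, rfl⟩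
  have hl : lamF (g : (K × W × K) ≃ₗ[K] (K × W × K)) = 1 := by
    rw [lamF, h1]
    rfl
  have e3 : (g : (K × W × K) ≃ₗ[K] (K × W × K)) (0, 0, 1) = (a, y, 1) := by
    refine Prod.ext ha.symm (Prod.ext hy.symm ?_)
    have := thd hg (0, 0, 1)
    rwa [hl, one_mul] at this
  have e2 : ∀ x : W, (g : (K × W × K) ≃ₗ[K] (K × W × K)) (0, x, 0) = (- B x y, x, 0) := by
    intro x
    have h4 := form_of hg x
    rw [h3 x] at h4
    have h5 := iso c g (0, x, 0) (0, 0, 1)
    rw [h4, e3, hypo_apply, hypo_apply] at h5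
    simp only [mul_one, mul_zero, zero_mul, zero_add, map_zero, LinearMap.zero_apply,
      add_zero] at h5
    rw [h4]
    refine Prod.ext ?_ rfl
    exact eq_neg_of_add_eq_zero_left h5
  have e4 : a = - Q y := by
    have h4 := qf c g (0, 0, 1)
    rw [e3, hyq_apply, hyq_apply] at h4
    simp only [mul_one, zero_mul, h.zero, add_zero, zero_add] at h4
    exact eq_neg_of_add_eq_zero_left h4
  refine ⟨y, ext_X fun u => ?_⟩
  have hu : u = u.1 • oo K W + ((0 : K), u.2.1, (0 : K)) + u.2.2 • ((0 : K), (0 : W), (1 : K)) := by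
    refine Prod.ext ?_ (Prod.ext ?_ ?_)
    · change u.1 = u.1 * 1 + 0 + u.2.2 * 0
      ring
    · change u.2.1 = u.1 • (0 : W) + u.2.1 + u.2.2 • (0 : W)
      rw [smul_zero, smul_zero, zero_add, add_zero]
    · change u.2.2 = u.1 * 0 + 0 + u.2.2 * 1
      ring
  nth_rewrite 1 [hu]
  rw [map_add, map_add, map_smul, map_smul, h1, e2, e3, qX_apply h c, e4]
  refine Prod.ext ?_ (Prod.ext ?_ ?_)
  · change u.1 * 1 + (- B u.2.1 y) + u.2.2 * (- Q y) = _
    ring
  · change u.1 • (0 : W) + u.2.1 + u.2.2 • y = _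
    rw [smul_zero, zero_add]
  · change u.1 * 0 + 0 + u.2.2 * 1 = u.2.2
    ring

variable [Finite K] [Module.Finite K W]

/-- **The centraliser of the first radical.** -/
theorem cent_oo (hd : 3 ≤ finrank K W) {g : X}
    (ht : ∀ s ∈ RT (hyq Q) (hypo B) X (oo K W), g * s = s * g) :
    g ∈ RT (hyq Q) (hypo B) X (oo K W) := by
  haveI : Finite W := Module.finite_of_finite K
  obtain ⟨k, hk0, hk⟩ := line_of_norm c (by
    rw [Module.finrank_prod, Module.finrank_prod, Module.finrank_self]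
    omega) oo_ne (oo_sing h) (g := g) (fun s hs => by
    rw [ht s hs, mul_inv_cancel_right]
    exact hs)
  have hg := mem_St h c hk
  have hlam : lamF (g : (K × W × K) ≃ₗ[K] (K × W × K)) = k := by
    rw [lamF, hk]
    exact mul_one k
  have h1 : ∀ y, k • blF (g : (K × W × K) ≃ₗ[K] (K × W × K)) y = y := by
    intro y
    have h3 := conj_eq c (ht _ ((mem_RT_oo h c).mpr ⟨y, rfl⟩))
    rw [qX, rX_conj c g (oo_sing h) (oo_mid B 0 y), hk, form_of hg y] at h3
    have h4 : hypo B (oo K W) (((g : (K × W × K) ≃ₗ[K] (K × W × K)) (0, y, 0)).1,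
        blF (g : (K × W × K) ≃ₗ[K] (K × W × K)) y, 0) = 0 := oo_mid B _ _
    rw [rX_smul c (oo_sing h) h4] at h3
    obtain ⟨j, hj⟩ := rX_inj c oo_ne (oo_sing h) (by rw [map_smul, h4, smul_zero])
      (oo_mid B 0 y) h3
    have h5 := congrArg (fun u : K × W × K => u.2.1) hj
    change k • blF (g : (K × W × K) ≃ₗ[K] (K × W × K)) y = y + j • (0 : W) at h5
    rwa [smul_zero, add_zero] at h5
  obtain ⟨e, he0, he⟩ := exists_sing h hd
  obtain ⟨y, -, hyy⟩ := exists_nonsing h hd he0 he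
  have hk1 : k = 1 := by
    have h3 := qf c g (0, y, 0)
    rw [form_of hg y, hyq_apply, hyq_apply] at h3
    simp only [mul_zero, zero_add] at h3
    have h4 : Q (k • blF (g : (K × W × K) ≃ₗ[K] (K × W × K)) y) = k * k * Q y := by
      rw [h.sm, h3]
    rw [h1] at h4
    have h5 : k * k = 1 := mul_right_cancel₀ hyy (by rw [← h4, one_mul])
    have h6 : (k - 1) * (k - 1) = 0 := by linear_combination h5 + (1 - k) * h.two
    exact sub_eq_zero.mp (mul_self_eq_zero.mp h6)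
  rw [hk1, one_smul] at hk
  obtain ⟨y₀, hy₀⟩ := exists_qX h c hk (fun x => by
    have h3 := h1 x
    rwa [hk1, one_smul] at h3)
  exact (mem_RT_oo h c).mpr ⟨y₀, hy₀⟩

variable [CharP K 2] (hμ : ∃ μ : K, μ ≠ 0 ∧ μ ^ 2 ≠ 1)

include hμ

/-- **The first radical is radical.** -/
theorem isRad_oo (hd : 3 ≤ finrank K W) : Bt.IsRad 2 (RT (hyq Q) (hypo B) X (oo K W)) := by
  haveI : Finite W := Module.finite_of_finite K
  haveI : Finite ((K × W × K) ≃ₗ[K] (K × W × K)) := finite_gl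
  refine ⟨isPGroup_RT c (oo_sing h), fun Y hY hYN hYn t ht => ?_⟩
  have hdV : 3 ≤ finrank K (K × W × K) := by
    rw [Module.finrank_prod, Module.finrank_prod, Module.finrank_self]
    omega
  have hY1 : ∀ g ∈ Y, (g : (K × W × K) ≃ₗ[K] (K × W × K)) (oo K W) = oo K W := by
    intro g hg
    obtain ⟨k, -, hk⟩ := line_of_norm c hdV oo_ne (oo_sing h) (g := g)
      (fun x hx => (mem_normalizer_iff.mp (hYN hg) x).mp hx)
    obtain ⟨n, hn⟩ := Bt.isPGroup_iff.mp hY g hg
    have h3 : ∀ i : ℕ, (((g ^ i : X)) : (K × W × K) ≃ₗ[K] (K × W × K)) (oo K W) =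
        k ^ i • oo K W := by
      intro i
      induction i with
      | zero => rw [pow_zero, pow_zero, one_smul]; rfl
      | succ i ih => rw [pow_succ', Subgroup.coe_mul, LinearEquiv.mul_apply, ih, map_smul, hk,
          smul_smul, pow_succ]
    have h4 := h3 (2 ^ n)
    rw [hn] at h4
    have h6 := congrArg Prod.fst h4
    change (1 : K) = k ^ 2 ^ n * 1 at h6
    rw [mul_one] at h6
    have h7 : (k - 1) ^ 2 ^ n = 0 := by
      rw [sub_pow_char_pow, ← h6, one_pow, sub_self]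
    have h8 : k = 1 := sub_eq_zero.mp (pow_eq_zero_iff (pow_ne_zero n two_ne_zero) |>.mp h7)
    rw [hk, h8, one_smul]
  have hYS : ∀ g ∈ Y, (g : (K × W × K) ≃ₗ[K] (K × W × K)) ∈ StO B := fun g hg =>
    mem_St h c (k := 1) (by rw [hY1 g hg, one_smul])
  obtain ⟨x₀, hx₀, hfix⟩ := Bt.exists_fixed_gen hY
    (fun (y : Y) (x : W) => blF ((y : X) : (K × W × K) ≃ₗ[K] (K × W × K)) x)
    (fun x => blF_one x) (fun y z x => blF_mul (hYS y y.2) (hYS z z.2) x)
    (by
      rw [Module.natCard_eq_pow_finrank (K := K)]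
      exact dvd_pow Bt.dvd_card_K (by omega)) (x₀ := (0 : W)) (fun y => map_zero _)
  let E : Submodule K W :=
    { carrier := {x | ∀ g ∈ Y, blF (g : (K × W × K) ≃ₗ[K] (K × W × K)) x = x}
      zero_mem' := fun g _ => map_zero _
      add_mem' := by
        intro a b ha hb g hg
        rw [map_add, ha g hg, hb g hg]
      smul_mem' := by
        intro a x hx g hg
        rw [map_smul, hx g hg] }
  have hbl : ∀ w : W, w ∈ E := by
    refine irr h hμ hd (E := E) ?_ (x := x₀) (fun g hg => hfix ⟨g, hg⟩) hx₀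
    intro u y hu hy x hx g hg
    -- the Levi element
    have hu' : hyq Q ((0 : K), u, (0 : K)) = 0 := mid_sing 0 hu
    have hy' : hypo B ((0 : K), u, (0 : K)) ((0 : K), y, (0 : K)) = 0 := by
      rw [hypo_apply]
      change (0 : K) * 0 + 0 * 0 + B u y = 0
      rw [hy]
      ring
    obtain ⟨a, ha⟩ : ∃ a : X, a = rX (hyq Q) (hypo B) X ((0 : K), u, (0 : K))
      ((0 : K), y, (0 : K)) := ⟨_, rfl⟩
    have haoo : (a : (K × W × K) ≃ₗ[K] (K × W × K)) (oo K W) = oo K W := by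
      rw [ha, rX_apply c hu' hy', rl_apply, oo_mid, oo_mid, mul_zero, add_zero, zero_smul,
        zero_smul, add_zero, sub_zero]
    have haS := mem_St h c (k := 1) (by rw [haoo, one_smul] : (a : (K × W × K) ≃ₗ[K]
      (K × W × K)) (oo K W) = (1 : K) • oo K W)
    have habl : blF (a : (K × W × K) ≃ₗ[K] (K × W × K)) x = rl Q B u y x := by
      rw [blF_apply, ha, rX_apply c hu' hy', rl_apply, hypo_apply, hypo_apply, hyq_apply, rl_apply]
      change x + ((0 : K) * 0 + 0 * 0 + B x u) • y - (((0 : K) * 0 + 0 * 0 + B x y) +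
        ((0 : K) * 0 + Q y) * ((0 : K) * 0 + 0 * 0 + B x u)) • u = _
      simp only [mul_zero, zero_add]
    have haN : a ∈ normalizer (RT (hyq Q) (hypo B) X (oo K W) : Set X) := by
      rw [mem_normalizer_iff]
      intro x
      have h1 := RT_conj_iff' c a (oo_sing h) (t := a * x * a⁻¹)
      rw [haoo] at h1
      have h3 : a⁻¹ * (a * x * a⁻¹) * a = x := by group
      rwa [h3] at h1
    have hcj : a⁻¹ * g * a ∈ Y := by
      have h3 : a⁻¹ * g * a = a⁻¹ * g * a⁻¹⁻¹ := by rw [inv_inv]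
      rw [h3]
      exact hYn _ (Subgroup.inv_mem _ haN) _ hg
    have h3 := hx _ hcj
    have h4 : (g : (K × W × K) ≃ₗ[K] (K × W × K)) * a =
        a * ((a⁻¹ * g * a : X) : (K × W × K) ≃ₗ[K] (K × W × K)) := by
      rw [← Subgroup.coe_mul, ← Subgroup.coe_mul]
      congr 1
      group
    have h5 := congrArg (fun e => blF e x) h4
    rw [blF_mul (hYS g hg) haS, blF_mul haS (hYS _ hcj), h3, habl] at h5
    exact h5
  obtain ⟨z, h5⟩ := exists_qX h c (hY1 t ht) (fun x => hbl x t ht)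
  exact (mem_RT_oo h c).mpr ⟨z, h5⟩

theorem Phi_oo (hd : 3 ≤ finrank K W) :
    Phi 2 (Nat.card K) (RT (hyq Q) (hypo B) X (oo K W)) := by
  haveI : Finite W := Module.finite_of_finite K
  haveI : Finite ((K × W × K) ≃ₗ[K] (K × W × K)) := finite_gl
  refine ⟨?_, isRad_oo h c hμ hd, fun s hs t ht => RT_comm c (oo_sing h) hs ht, ?_⟩
  · intro h0
    obtain ⟨e, he0, -⟩ := exists_sing h hd
    apply he0
    apply qX_inj h c
    have h1 : qX Q B X e ∈ RT (hyq Q) (hypo B) X (oo K W) := (mem_RT_oo h c).mpr ⟨e, rfl⟩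
    rw [h0, mem_bot] at h1
    rw [h1, qX_zero h c]
  · intro g ht
    refine card_RT c oo_ne (oo_sing h) fun k hk => ht ?_
    have hk0 : k ≠ 0 := by
      rintro rfl
      rw [zero_smul] at hk
      exact oo_ne ((g : (K × W × K) ≃ₗ[K] (K × W × K)).map_eq_zero_iff.mp hk)
    rw [mem_normalizer_iff]
    intro x
    have h1 := RT_conj_iff' c g (oo_sing h) (t := g * x * g⁻¹)
    rw [hk, RT_smul c hk0 (oo_sing h)] at h1
    have h3 : g⁻¹ * (g * x * g⁻¹) * g = x := by group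
    rwa [h3] at h1

omit [CharP K 2] hμ in
/-- all radicals -/
theorem RT_conj_oo (hd : 3 ≤ finrank K W) {v : K × W × K} (hv0 : v ≠ 0)
    (hv : hyq Q v = 0) : ∃ g : X, ∀ x, g⁻¹ * x * g ∈ RT (hyq Q) (hypo B) X (oo K W) ↔
      x ∈ RT (hyq Q) (hypo B) X v := by
  obtain ⟨g, k, hk0, hk⟩ := trans c (by
    rw [Module.finrank_prod, Module.finrank_prod, Module.finrank_self]
    omega) oo_ne hv0 (oo_sing h) hv
  refine ⟨g, fun x => ?_⟩
  rw [RT_conj_iff' c g (oo_sing h), hk, RT_smul c hk0 hv]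

theorem Phi_RT (hd : 3 ≤ finrank K W) {v : K × W × K} (hv0 : v ≠ 0)
    (hv : hyq Q v = 0) : Phi 2 (Nat.card K) (RT (hyq Q) (hypo B) X v) := by
  obtain ⟨g, hg⟩ := RT_conj_oo h c hd hv0 hv
  have h1 := (Phi_oo h c hμ hd).map (MulAut.conj g)
  have h3 : (RT (hyq Q) (hypo B) X (oo K W)).map (MulAut.conj g).toMonoidHom =
      RT (hyq Q) (hypo B) X v := by
    ext x
    rw [mem_map_aut, ← hg]
    rfl
  rwa [h3] at h1

omit [CharP K 2] hμ in
theorem cent_RT (hd : 3 ≤ finrank K W) {v : K × W × K} (hv0 : v ≠ 0)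
    (hv : hyq Q v = 0) {t : X} (ht : ∀ s ∈ RT (hyq Q) (hypo B) X v, t * s = s * t) :
    t ∈ RT (hyq Q) (hypo B) X v := by
  obtain ⟨g, hg⟩ := RT_conj_oo h c hd hv0 hv
  rw [← hg]
  refine cent_oo h c hd fun s hs => ?_
  have h1 := ht (g * s * g⁻¹) ((hg _).mp (by
    have h3 : g⁻¹ * (g * s * g⁻¹) * g = s := by group
    rwa [h3]))
  have h3 : g⁻¹ * (t * (g * s * g⁻¹)) * g = g⁻¹ * (g * s * g⁻¹ * t) * g := by
    rw [h1]
  have h4 : g⁻¹ * (t * (g * s * g⁻¹)) * g = g⁻¹ * t * g * s := by group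
  have h5 : g⁻¹ * (g * s * g⁻¹ * t) * g = s * (g⁻¹ * t * g) := by group
  rw [← h4, h3, h5]

/-- **The radicals are permuted by the automorphisms.** -/
theorem exists_img (hd : 5 ≤ finrank K W) (hd6 : finrank K W ≠ 6) (β : MulAut X)
    {v : K × W × K} (hv0 : v ≠ 0) (hv : hyq Q v = 0) :
    ∃ w : K × W × K, w ≠ 0 ∧ hyq Q w = 0 ∧
      ∀ x, β x ∈ RT (hyq Q) (hypo B) X w ↔ x ∈ RT (hyq Q) (hypo B) X v := by
  have hfin : finrank K (K × W × K) = finrank K W + 2 := by
    rw [Module.finrank_prod, Module.finrank_prod, Module.finrank_self]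
    omega
  obtain ⟨w, hw0, hw, hQ⟩ := eq_RT_of_Phi c (by omega) (by omega)
    (fun u hu0 hu t ht => cent_RT h c (by omega) hu0 hu ht)
    ((Phi_RT h c hμ (by omega) hv0 hv).map β)
  refine ⟨w, hw0, hw, fun x => ?_⟩
  rw [← hQ, mem_map_aut, MulEquiv.symm_apply_apply]

end Oo

end Vale.Agent.P180.R2.H589.Oe
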